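import Crest.Agent.R268.GDefs

/-! Commuting locally nilpotent derivations with common kernel `ℂ[G]`. -/

set_option autoImplicit false
set_option linter.unusedSimpArgs false
set_option linter.unusedSectionVars false

namespace Crest.Agent.R268.G

open MvPolynomial

theorem pderiv_comm' {σ R : Type*} [CommRing R] (i j : σ) (p : MvPolynomial σ R) :
    pderiv i (pderiv j p) = pderiv j (pderiv i p) := by
  classical
  induction p using MvPolynomial.induction_on with
  | C r => simp
  | add p q hp hq => simp only [map_add, hp, hq]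
  | mul_X p k hp =>
    have h1 : ∀ a b : σ, pderiv a (pderiv b (X k : MvPolynomial σ R)) = 0 := by
      intro a b
      by_cases h : k = b
      · subst h; simp
      · simp [pderiv_X_of_ne h]
    simp only [Derivation.leibniz, smul_eq_mul, map_add, hp, h1]
    ring

theorem eq_C_of_pderiv {σ R : Type*} [CommRing R] [IsDomain R] [CharZero R]
    (p : MvPolynomial σ R) (h : ∀ i, pderiv i p = 0) : p = C (coeff 0 p) := by
  classical
  ext d
  rw [coeff_C]
  split_ifs with hd
  · rw [hd]
  · obtain ⟨i, hi⟩ : ∃ i, d i ≠ 0 := by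
      by_contra hne
      push Not at hne
      exact hd (Finsupp.ext hne).symm
    have h1 := congrArg (coeff (d - Finsupp.single i 1)) (h i)
    rw [coeff_pderiv, coeff_zero] at h1
    have h2 : d - Finsupp.single i 1 + Finsupp.single i 1 = d := by
      apply tsub_add_cancel_of_le
      rw [Finsupp.single_le_iff]
      omega
    rw [h2] at h1
    rcases mul_eq_zero.1 h1 with h3 | h3
    · exact h3
    · exact absurd h3 (Nat.cast_add_one_ne_zero _)

abbrev K0 : Type := Localization.Away (Polynomial.X : Polynomial ℂ)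

instance instDomK0 : IsDomain K0 := Localization.Away.isDomain Polynomial.X_ne_zero

instance instCharK0 : CharZero K0 := algebraRat.charZero K0

noncomputable def g0 : K0 := algebraMap (Polynomial ℂ) K0 Polynomial.X
noncomputable def gi0 : K0 := IsLocalization.Away.invSelf (S := K0) (Polynomial.X : Polynomial ℂ)

theorem g0_gi0 : g0 * gi0 = 1 := IsLocalization.Away.mul_invSelf _

theorem g0_ne : g0 ≠ 0 := left_ne_zero_of_mul_eq_one g0_gi0

theorem aeval_g0 (q : Polynomial ℂ) : Polynomial.aeval g0 q = algebraMap (Polynomial ℂ) K0 q := by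
  rw [g0, Polynomial.aeval_algebraMap_apply, Polynomial.aeval_X_left_apply]

abbrev AA (m : ℕ) : Type := MvPolynomial (Fin (4 + m)) ℂ
abbrev LL (m : ℕ) : Type := MvPolynomial (Fin 3 ⊕ Fin m) K0

variable (m : ℕ)

/-- the four basic variables -/
noncomputable def xv (i : Fin 4) : AA m := X (Fin.castAdd m i)

noncomputable def GA : AA m := GG (xv m 0) (xv m 1) (xv m 2) (xv m 3)

noncomputable def lv (i : Fin 3) : LL m := X (Sum.inl i)

noncomputable def img4 : Fin 4 → LL m :=
  ![hI (C g0) (C gi0) (lv m 0) (lv m 1), uI (C g0) (C gi0) (lv m 0) (lv m 1) (lv m 2),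
    vI (C g0) (C gi0) (lv m 0) (lv m 1) (lv m 2), wI (C g0) (C gi0) (lv m 0) (lv m 1) (lv m 2)]

noncomputable def iota : AA m →ₐ[ℂ] LL m :=
  aeval (Fin.append (img4 m) (fun i => X (Sum.inr i)))

theorem iota_xv (i : Fin 4) : iota m (xv m i) = img4 m i := by
  simp [iota, xv]

theorem iota_z (i : Fin m) : iota m (X (Fin.natAdd 4 i)) = X (Sum.inr i) := by
  simp [iota]

theorem Cg : (C g0 : LL m) * C gi0 = 1 := by rw [← map_mul, g0_gi0, map_one]

theorem hI_ne : hI (C g0 : LL m) (C gi0) (lv m 0) (lv m 1) ≠ 0 := by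
  intro h
  have := congrArg (eval (fun _ => (0 : K0))) h
  rw [map_hI] at this
  simp [hI, qF, xI, yI, sI, lv, g0_ne] at this

theorem iota_G : iota m (GA m) = C g0 := by
  rw [GA, map_GG]
  simp only [iota_xv, img4, Matrix.cons_val_zero, Matrix.cons_val_one, Matrix.cons_val]
  exact back_G (Cg m) _ _ _ (hI_ne m)

noncomputable def ev3 : Fin 3 → AA m :=
  ![XX (xv m 0) (xv m 1) (xv m 2) (xv m 3), YY (xv m 0) (xv m 1) (xv m 2) (xv m 3),
    TT (xv m 0) (xv m 1) (xv m 2) (xv m 3)]

/-- preimages of the variables of `LL m` -/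
noncomputable def pre : Fin 3 ⊕ Fin m → AA m := Sum.elim (ev3 m) (fun i => X (Fin.natAdd 4 i))

theorem iota_pre (j : Fin 3 ⊕ Fin m) : iota m (pre m j) = X j := by
  rcases j with j | j
  · fin_cases j
    · simp only [pre, Sum.elim_inl, ev3, Fin.zero_eta, Matrix.cons_val_zero, map_XX, iota_xv, img4,
        Matrix.cons_val_one, Matrix.cons_val]
      exact back_X (Cg m) _ _ _ (hI_ne m)
    · simp only [pre, Sum.elim_inl, ev3, Fin.mk_one, Matrix.cons_val_zero, map_YY, iota_xv, img4,
        Matrix.cons_val_one, Matrix.cons_val]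
      exact back_Y (Cg m) _ _ _ (hI_ne m)
    · simp only [pre, Sum.elim_inl, ev3, Fin.reduceFinMk, Matrix.cons_val_zero, map_TT, iota_xv,
        img4, Matrix.cons_val_one, Matrix.cons_val]
      exact back_T (Cg m) _ _ _ (hI_ne m)
  · exact iota_z m j

theorem GA_ne : GA m ≠ 0 := by
  intro h
  have := iota_G m
  rw [h, map_zero, eq_comm, C_eq_zero] at this
  exact g0_ne this

theorem iota_aeval (q : Polynomial ℂ) :
    iota m (Polynomial.aeval (GA m) q) = C (algebraMap (Polynomial ℂ) K0 q) := by
  rw [← Polynomial.aeval_algHom_apply, iota_G, ← aeval_g0]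
  exact Polynomial.aeval_algHom_apply
    (IsScalarTower.toAlgHom ℂ K0 (LL m)) g0 q

abbrev FA : Type := FractionRing (AA m)

theorem unitG : IsUnit ((Polynomial.aeval (algebraMap (AA m) (FA m) (GA m))).toRingHom
    (Polynomial.X : Polynomial ℂ)) := by
  simp only [AlgHom.toRingHom_eq_coe, RingHom.coe_coe, Polynomial.aeval_X]
  apply IsUnit.mk0
  intro h
  exact GA_ne m (IsFractionRing.injective (AA m) (FA m) (by rw [h, map_zero]))

noncomputable def psi0 : K0 →+* FA m := IsLocalization.Away.lift _ (unitG m)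

theorem psi0_alg (q : Polynomial ℂ) : psi0 m (algebraMap (Polynomial ℂ) K0 q)
    = Polynomial.aeval (algebraMap (AA m) (FA m) (GA m)) q :=
  IsLocalization.Away.lift_eq _ _ _

noncomputable def psi : LL m →+* FA m :=
  eval₂Hom (psi0 m) (fun j => algebraMap (AA m) (FA m) (pre m j))

theorem psi_Cg : psi m (C g0) = algebraMap (AA m) (FA m) (GA m) := by
  rw [psi, eval₂Hom_C, g0, psi0_alg, Polynomial.aeval_X]

theorem psi_iota : (psi m).comp (iota m).toRingHom = algebraMap (AA m) (FA m) := by
  have hg : algebraMap (AA m) (FA m) (GA m) * psi m (C gi0) = 1 := by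
    rw [← psi_Cg, ← map_mul, Cg, map_one]
  obtain ⟨h1, h2, h3, h4⟩ := forth_all (algebraMap (AA m) (FA m))
    (h := xv m 0) (X_ne_zero _) (xv m 1) (xv m 2) (xv m 3) hg
  have hl : ∀ i : Fin 3, psi m (lv m i) = algebraMap (AA m) (FA m) (ev3 m i) := by
    intro i; simp [psi, lv, pre]
  apply MvPolynomial.ringHom_ext
  · intro c
    have e1 : (iota m) (C c) = C (algebraMap (Polynomial ℂ) K0 (Polynomial.C c)) := by
      rw [← iota_aeval, Polynomial.aeval_C, algebraMap_eq]
    simp only [RingHom.comp_apply, AlgHom.toRingHom_eq_coe, RingHom.coe_coe, e1]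
    rw [psi, eval₂Hom_C, psi0_alg, Polynomial.aeval_C, IsScalarTower.algebraMap_apply ℂ (AA m) (FA m),
      algebraMap_eq]
  · intro i
    refine Fin.addCases (fun i => ?_) (fun i => ?_) i
    · change psi m (iota m (xv m i)) = algebraMap _ _ (xv m i)
      rw [iota_xv]
      fin_cases i
      · simp only [img4, Fin.zero_eta, Matrix.cons_val_zero, map_hI, psi_Cg, hl, ev3,
          Matrix.cons_val_one, Matrix.cons_val]
        exact h1
      · simp only [img4, Fin.mk_one, Matrix.cons_val_zero, map_uI, psi_Cg, hl, ev3,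
          Matrix.cons_val_one, Matrix.cons_val]
        exact h2
      · simp only [img4, Fin.reduceFinMk, Matrix.cons_val_zero, map_vI, psi_Cg, hl, ev3,
          Matrix.cons_val_one, Matrix.cons_val]
        exact h3
      · simp only [img4, Fin.reduceFinMk, Matrix.cons_val_zero, map_wI, psi_Cg, hl, ev3,
          Matrix.cons_val_one, Matrix.cons_val]
        exact h4
    · change psi m (iota m (X (Fin.natAdd 4 i))) = _
      rw [iota_z]
      simp [psi, pre]

theorem iota_inj : Function.Injective (iota m) := by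
  have h : Function.Injective ((psi m).comp (iota m).toRingHom) := by
    rw [psi_iota]; exact IsFractionRing.injective _ _
  intro a b hab
  apply h
  change psi m (iota m a) = psi m (iota m b)
  rw [hab]

theorem exists_pow (l : LL m) : ∃ n : ℕ, ∃ a : AA m, iota m a = C (g0 ^ n) * l := by
  induction l using MvPolynomial.induction_on with
  | C r =>
    obtain ⟨n, q, hq⟩ := IsLocalization.Away.surj (Polynomial.X : Polynomial ℂ) r
    refine ⟨n, Polynomial.aeval (GA m) q, ?_⟩
    rw [iota_aeval, ← hq, ← map_mul, mul_comm]; rfl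
  | add p q hp hq =>
    obtain ⟨n, a, ha⟩ := hp
    obtain ⟨k, b, hb⟩ := hq
    refine ⟨n + k, GA m ^ k * a + GA m ^ n * b, ?_⟩
    simp only [map_add, map_mul, map_pow, iota_G, ha, hb]
    ring
  | mul_X p j hp =>
    obtain ⟨n, a, ha⟩ := hp
    exact ⟨n, a * pre m j, by rw [map_mul, ha, iota_pre, mul_assoc]⟩

theorem exists_der (j : Fin 3 ⊕ Fin m) : ∃ N : ℕ, ∃ D : Derivation ℂ (AA m) (AA m),
    ∀ p, iota m (D p) = C (g0 ^ N) * pderiv j (iota m p) := by
  classical
  choose n a ha using fun k : Fin (4 + m) => exists_pow m (pderiv j (iota m (X k)))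
  let N := Finset.univ.sup n
  have hN : ∀ k, n k ≤ N := fun k => Finset.le_sup (f := n) (Finset.mem_univ k)
  refine ⟨N, mkDerivation ℂ (fun k => GA m ^ (N - n k) * a k), fun p => ?_⟩
  induction p using MvPolynomial.induction_on with
  | C r =>
    have : iota m (C r) = C (algebraMap ℂ K0 r) := by
      rw [algHom_C]; rfl
    simp [this]
  | add p q hp hq => simp only [map_add, hp, hq, mul_add]
  | mul_X p k hp =>
    simp only [Derivation.leibniz, smul_eq_mul, map_add, map_mul, hp, mkDerivation_X, map_pow,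
      iota_G, ha]
    have : (C g0 : LL m) ^ N = C g0 ^ (N - n k) * C g0 ^ n k := by
      rw [← pow_add, Nat.sub_add_cancel (hN k)]
    rw [this]
    ring

theorem pderiv_inr_img4 (i : Fin m) (k : Fin 4) : pderiv (Sum.inr i) (img4 m k) = 0 := by
  have h : ∃ q : MvPolynomial (Fin 3) K0, img4 m k = rename Sum.inl q := by
    fin_cases k
    · exact ⟨hI (C g0) (C gi0) (X 0) (X 1), by rw [map_hI]; simp [img4, lv]⟩
    · exact ⟨uI (C g0) (C gi0) (X 0) (X 1) (X 2), by rw [map_uI]; simp [img4, lv]⟩
    · exact ⟨vI (C g0) (C gi0) (X 0) (X 1) (X 2), by rw [map_vI]; simp [img4, lv]⟩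
    · exact ⟨wI (C g0) (C gi0) (X 0) (X 1) (X 2), by rw [map_wI]; simp [img4, lv]⟩
  obtain ⟨q, hq⟩ := h
  rw [hq]
  clear hq
  induction q using MvPolynomial.induction_on with
  | C r => simp
  | add p q hp hq => simp only [map_add, hp, hq, add_zero]
  | mul_X p j hp => simp [hp]

theorem iota_pderiv (i : Fin m) (p : AA m) :
    iota m (pderiv (Fin.natAdd 4 i) p) = C (g0 ^ 0) * pderiv (Sum.inr i) (iota m p) := by
  classical
  rw [pow_zero, map_one, one_mul]
  induction p using MvPolynomial.induction_on with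
  | C r =>
    have : iota m (C r) = C (algebraMap ℂ K0 r) := by
      rw [algHom_C]; rfl
    simp [this]
  | add p q hp hq => simp only [map_add, hp, hq]
  | mul_X p k hp =>
    have hk : iota m (pderiv (Fin.natAdd 4 i) (X k)) = pderiv (Sum.inr i) (iota m (X k)) := by
      refine Fin.addCases (fun k => ?_) (fun k => ?_) k
      · have hne : Fin.castAdd m k ≠ Fin.natAdd 4 i := by
          intro h
          have := congrArg Fin.val h
          simp at this
          omega
        rw [pderiv_X_of_ne hne, map_zero]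
        exact (iota_xv m k ▸ pderiv_inr_img4 m i k).symm
      · rw [iota_z]
        by_cases h : k = i
        · subst h; simp
        · rw [pderiv_X_of_ne, pderiv_X_of_ne, map_zero]
          · simpa using h
          · intro h'
            exact h (Fin.natAdd_injective _ _ h')
    simp only [Derivation.leibniz, smul_eq_mul, map_add, map_mul, hp, hk]

/-- a point of the critical locus -/
noncomputable def evP : AA m →+* ℂ :=
  eval (Fin.append (![2, 0, -1 / 2, 1 / 2] : Fin 4 → ℂ) (fun _ => 0))

theorem crit_GA (D : Derivation ℂ (AA m) (AA m)) : evP m (GA m) = 0 ∧ evP m (D (GA m)) = 0 :=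
  crit D (evP m) (by simp [evP, xv]) (by simp [evP, xv]) (by simp [evP, xv]) (by simp [evP, xv])

theorem mem_adjoin_of_pow (n : ℕ) (p : AA m) (q : Polynomial ℂ)
    (h : GA m ^ n * p = Polynomial.aeval (GA m) q) : p ∈ Algebra.adjoin ℂ {GA m} := by
  induction n generalizing q with
  | zero =>
    rw [pow_zero, one_mul] at h
    rw [h]; exact Polynomial.aeval_mem_adjoin_singleton _ _
  | succ n ih =>
    have h0 : q.coeff 0 = 0 := by
      have h1 := congrArg (evP m) h
      rw [map_mul, map_pow, (crit_GA m 0).1, zero_pow (Nat.succ_ne_zero n), zero_mul,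
        Polynomial.aeval_def, Polynomial.hom_eval₂, (crit_GA m 0).1, Polynomial.eval₂_at_zero] at h1
      simpa [evP] using h1.symm
    obtain ⟨q1, rfl⟩ := Polynomial.X_dvd_iff.2 h0
    apply ih q1
    apply mul_left_cancel₀ (GA_ne m)
    rw [map_mul, Polynomial.aeval_X] at h
    rw [← h]; ring

theorem main (D : Fin 3 ⊕ Fin m → Derivation ℂ (AA m) (AA m)) (N : Fin 3 ⊕ Fin m → ℕ)
    (key : ∀ j p, iota m (D j p) = C (g0 ^ N j) * pderiv j (iota m p)) :
    (∀ a b : Fin 3 ⊕ Fin m, ∀ p : AA m, D a (D b p) = D b (D a p)) ∧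
    (∀ a : Fin 3 ⊕ Fin m, ∀ p : AA m, ∃ k : ℕ, (D a)^[k] p = 0) ∧
    LinearIndependent (AA m) D ∧
    (∀ p : AA m, (∀ a : Fin 3 ⊕ Fin m, D a p = 0) ↔ p ∈ Algebra.adjoin ℂ {GA m}) ∧
    ∀ g : AA m, (∀ a : Fin 3 ⊕ Fin m, D a g = 0) →
      ¬ ∃ τ : AA m ≃ₐ[ℂ] AA m, τ g = MvPolynomial.X (Fin.castAdd m 0) := by
  classical
  have hc : ∀ j, (C (g0 ^ N j) : LL m) ≠ 0 := fun j => by
    rw [Ne, C_eq_zero]; exact pow_ne_zero _ g0_ne
  have hker : ∀ p : AA m, (∀ a : Fin 3 ⊕ Fin m, D a p = 0) ↔ p ∈ Algebra.adjoin ℂ {GA m} := by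
    intro p
    constructor
    · intro h
      have h1 : ∀ j, pderiv j (iota m p) = 0 := by
        intro j
        have := key j p
        rw [h j, map_zero] at this
        exact (mul_eq_zero.1 this.symm).resolve_left (hc j)
      have h2 := eq_C_of_pderiv _ h1
      obtain ⟨n, q, hq⟩ := IsLocalization.Away.surj (Polynomial.X : Polynomial ℂ)
        (coeff 0 (iota m p))
      apply mem_adjoin_of_pow m n p q
      apply iota_inj m
      rw [iota_aeval, ← hq, map_mul, map_pow, iota_G, map_mul, ← h2, map_pow, mul_comm]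
      rfl
    · intro h a
      obtain ⟨q, rfl⟩ := Algebra.adjoin_mem_exists_aeval _ _ h
      apply iota_inj m
      rw [key, iota_aeval, pderiv_C, mul_zero, map_zero]
  refine ⟨?_, ?_, ?_, hker, ?_⟩
  · intro a b p
    apply iota_inj m
    simp only [key, pderiv_C_mul]
    rw [pderiv_comm' a b]
    ring
  · intro a p
    obtain ⟨k, hk⟩ := lnd_pderiv a (iota m p)
    refine ⟨k, iota_inj m ?_⟩
    have : ∀ n : ℕ, iota m ((D a)^[n] p)
        = C (g0 ^ N a) ^ n * (⇑(pderiv a : Derivation K0 (LL m) (LL m)))^[n] (iota m p) := by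
      intro n
      induction n with
      | zero => simp
      | succ n ih =>
        rw [Function.iterate_succ_apply', Function.iterate_succ_apply', key, ih, ← map_pow,
          pderiv_C_mul, map_pow (C : K0 →+* LL m) (g0 ^ N a) n, pow_succ]
        generalize (C (g0 ^ N a) : LL m) = c
        ring
    rw [this, hk, mul_zero, map_zero]
  · rw [Fintype.linearIndependent_iff]
    intro c hc0 j
    have h1 := congrArg (fun E : Derivation ℂ (AA m) (AA m) => iota m (E (pre m j))) hc0
    have h2 : ∀ s : Finset (Fin 3 ⊕ Fin m),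
        (∑ i ∈ s, c i • D i) (pre m j) = ∑ i ∈ s, c i * D i (pre m j) := by
      intro s
      induction s using Finset.induction_on with
      | empty => simp
      | insert a s ha ih => simp [Finset.sum_insert ha, ih]
    simp only [h2, map_sum, map_mul, key, iota_pre, Derivation.zero_apply, map_zero] at h1
    rw [Finset.sum_eq_single j] at h1
    · rw [pderiv_X_self, mul_one] at h1
      apply iota_inj m
      rw [map_zero]
      exact (mul_eq_zero.1 h1).resolve_right (hc j)
    · intro b _ hb
      rw [pderiv_X_of_ne hb.symm, mul_zero, mul_zero]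
    · simp
  · intro g hg
    obtain ⟨q, rfl⟩ := Algebra.adjoin_mem_exists_aeval _ _ ((hker g).1 hg)
    refine not_coord_of_crit _ (evP m) (fun i => ?_) _
    rw [Derivation.map_aeval, smul_eq_mul, map_mul, (crit_GA m _).2, mul_zero]

end Crest.Agent.R268.G
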