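import Crest.Agent.R268.LND

/-! Rigidity lemmas for locally nilpotent derivations on the quadric `xy = z(z+1)` and on its
cylinder. -/

set_option autoImplicit false
set_option linter.unusedSimpArgs false
set_option linter.unusedSectionVars false

namespace Crest.Agent.R268

open Polynomial

theorem algebraic_of_rel {K : Type*} [Field K] [Algebra ℂ K] {α : K} (hα : α ≠ 0) (q1 q2 : ℂ[X])
    (h : aeval α⁻¹ q1 = α ^ 2 * aeval α q2) (h2 : aeval α q2 ≠ 0) :
    ∃ c : ℂ, algebraMap ℂ K c = α := by
  have hq2 : q2 ≠ 0 := by rintro rfl; simp at h2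
  have : Invertible α⁻¹ := invertibleOfNonzero (inv_ne_zero hα)
  have h3 := Polynomial.eval₂_reverse_mul_pow (algebraMap ℂ K) α⁻¹ q1
  rw [invOf_eq_inv, inv_inv, ← aeval_def, ← aeval_def, h] at h3
  have hW : aeval α (X ^ (q1.natDegree + 2) * q2 - q1.reverse) = 0 := by
    rw [map_sub, map_mul, map_pow, aeval_X, sub_eq_zero]
    have h4 : aeval α q1.reverse = aeval α q1.reverse * α⁻¹ ^ q1.natDegree * α ^ q1.natDegree := by
      rw [mul_assoc, ← mul_pow, inv_mul_cancel₀ hα, one_pow, mul_one]
    rw [h4, h3]; ring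
  have hW0 : X ^ (q1.natDegree + 2) * q2 - q1.reverse ≠ 0 := by
    intro h0
    have h5 := congrArg natDegree (sub_eq_zero.1 h0)
    rw [natDegree_mul (pow_ne_zero _ X_ne_zero) hq2, natDegree_X_pow] at h5
    have := reverse_natDegree_le q1
    omega
  have halg : IsIntegral ℂ α := (IsAlgebraic.isIntegral ⟨_, hW0, hW⟩)
  exact minpoly.mem_range_of_degree_eq_one ℂ α
    (IsAlgClosed.degree_eq_one_of_irreducible ℂ (minpoly.irreducible halg))

section dan
variable {R : Type*} [CommRing R] [IsDomain R] [Algebra ℂ R] {x y z : R}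

theorem dan_lemma (hrel : x * y = z * (z + 1)) (hgen : Algebra.adjoin ℂ {x, y, z} = ⊤)
    (hx : x ≠ 0) (hz : z ≠ 0) (hxz : ∀ c : ℂ, x ≠ algebraMap ℂ R c * z)
    (δ : Derivation ℂ R R) (hδ : IsLND δ) {κ r1 r2 : R} (hκ : κ ≠ 0) (hκδ : δ κ = 0)
    (h1 : x * κ = z * r1) (h2 : z * κ = x * r2) : δ = 0 := by
  have : CharZero R := charZero_of_injective_algebraMap (algebraMap ℂ R).injective
  have h12 : r1 * r2 = κ * κ := by
    apply mul_left_cancel₀ (mul_ne_zero hx hz)
    linear_combination (-(x * r2)) * h1 - (x * κ) * h2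
  have hκκ : κ * κ ≠ 0 := mul_ne_zero hκ hκ
  have hδκκ : δ (κ * κ) = 0 := by simp [hκδ]
  have hr1 : δ r1 = 0 := ker_of_mul δ hδ (b := r2) (h12 ▸ hκκ) (h12 ▸ hδκκ)
  have hr2 : δ r2 = 0 := ker_of_mul δ hδ (b := r1) (by rw [mul_comm, h12]; exact hκκ)
    (by rw [mul_comm, h12]; exact hδκκ)
  have hr2' : r2 ≠ 0 := by
    intro h0; rw [h0, mul_zero] at h12; exact hκκ h12.symm
  let K := AlgebraicClosure (FractionRing R)
  let j : R →+* K := algebraMap R K
  have hj : Function.Injective j := by
    have : j = (algebraMap (FractionRing R) K).comp (algebraMap R (FractionRing R)) :=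
      IsScalarTower.algebraMap_eq R (FractionRing R) K
    rw [this]
    exact (algebraMap (FractionRing R) K).injective.comp (IsFractionRing.injective R _)
  have hj0 : ∀ {a : R}, a ≠ 0 → j a ≠ 0 := fun ha h0 => ha (hj (by rw [h0, map_zero]))
  have : CharZero K := charZero_of_injective_ringHom hj
  have hjc : ∀ c : ℂ, j (algebraMap ℂ R c) = algebraMap ℂ K c := fun c =>
    (IsScalarTower.algebraMap_apply ℂ R K c).symm
  let φ := expHom δ hδ j
  obtain ⟨α, hα⟩ : ∃ α : K, j r1 = α * j κ := ⟨j r1 / j κ, by rw [div_mul_cancel₀ _ (hj0 hκ)]⟩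
  have hφx : φ x = C α * φ z := by
    have h3 := congrArg φ h1
    rw [map_mul, map_mul, expHom_of_ker δ hδ j hκδ, expHom_of_ker δ hδ j hr1, hα, map_mul] at h3
    apply mul_right_cancel₀ (C_ne_zero.2 (hj0 hκ))
    rw [h3]; ring
  have hjx : j x = α * j z := by
    have := congrArg (fun p => p.coeff 0) hφx
    simpa [φ, coeff_zero_expHom] using this
  have hα0 : α ≠ 0 := by
    intro h0; rw [h0, zero_mul] at hjx; exact hj0 hx hjx
  have hκr : j κ = α * j r2 := by
    apply mul_left_cancel₀ (hj0 hz)
    have := congrArg j h2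
    rw [map_mul, map_mul, hjx] at this
    rw [this]; ring
  have hφz : φ z ≠ 0 := by
    intro h0
    have := coeff_zero_expHom δ hδ j z
    rw [show expHom δ hδ j z = 0 from h0, coeff_zero] at this
    exact hj0 hz this.symm
  have hφy : C α * φ y = φ z + 1 := by
    apply mul_left_cancel₀ hφz
    have := congrArg φ hrel
    rw [map_mul, map_mul, map_add, map_one, hφx] at this
    rw [← this]; ring
  by_cases hd : (φ z).natDegree = 0
  · have e1 : δ z = 0 := ker_of_natDegree_expHom δ hδ j hj hd
    have e2 : δ x = 0 := ker_of_natDegree_expHom δ hδ j hj (by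
      change (φ x).natDegree = 0
      rw [hφx, natDegree_C_mul hα0, hd])
    have e3 : δ y = 0 := ker_of_natDegree_expHom δ hδ j hj (by
      change (φ y).natDegree = 0
      rw [← natDegree_C_mul hα0, hφy, ← C_1, natDegree_add_C, hd])
    refine Derivation.ext_of_adjoin_eq_top _ hgen ?_
    rintro a (rfl | rfl | rfl)
    · simpa using e2
    · simpa using e3
    · simpa using e1
  · exfalso
    have hmem : ∀ (t : K) (β : K), (φ x).eval t ∈ Algebra.adjoin ℂ {β} →
        (φ y).eval t ∈ Algebra.adjoin ℂ {β} → (φ z).eval t ∈ Algebra.adjoin ℂ {β} →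
        ∀ r : R, (φ r).eval t ∈ Algebra.adjoin ℂ {β} := by
      intro t β ex ey ez r
      have hr : r ∈ Algebra.adjoin ℂ {x, y, z} := by rw [hgen]; trivial
      induction hr using Algebra.adjoin_induction with
      | mem a ha =>
        rcases ha with rfl | rfl | rfl
        exacts [ex, ey, ez]
      | algebraMap c =>
        rw [show φ (algebraMap ℂ R c) = C (j (algebraMap ℂ R c)) from
          expHom_of_ker δ hδ j (δ.map_algebraMap c), eval_C, hjc]
        exact Subalgebra.algebraMap_mem _ c
      | add a b _ _ ha hb => rw [map_add, eval_add]; exact add_mem ha hb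
      | mul a b _ _ ha hb => rw [map_mul, eval_mul]; exact mul_mem ha hb
    obtain ⟨t0, ht0⟩ := IsAlgClosed.exists_root (φ z) (by
      intro h0; exact hd (natDegree_eq_zero_iff_degree_le_zero.2 h0.le))
    obtain ⟨t1, ht1⟩ := IsAlgClosed.exists_root (φ z + 1) (by
      intro h0
      have := natDegree_eq_zero_iff_degree_le_zero.2 h0.le
      rw [← C_1, natDegree_add_C] at this
      exact hd this)
    rw [IsRoot.def] at ht0 ht1
    have m1 : (φ r1).eval t0 ∈ Algebra.adjoin ℂ {α⁻¹} := by
      apply hmem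
      · rw [hφx, eval_mul, ht0, mul_zero]; exact zero_mem _
      · have := congrArg (eval t0) hφy
        rw [eval_mul, eval_C, eval_add, ht0, eval_one, zero_add] at this
        rw [eq_inv_of_mul_eq_one_right this]
        exact Algebra.self_mem_adjoin_singleton ℂ _
      · rw [ht0]; exact zero_mem _
    have m2 : (φ r2).eval t1 ∈ Algebra.adjoin ℂ {α} := by
      have ez : (φ z).eval t1 = -1 := by
        rw [eval_add, eval_one] at ht1; linear_combination ht1
      apply hmem
      · rw [hφx, eval_mul, ez, eval_C, mul_neg, mul_one]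
        exact neg_mem (Algebra.self_mem_adjoin_singleton ℂ _)
      · have := congrArg (eval t1) hφy
        rw [eval_mul, eval_C, ht1] at this
        rw [(mul_eq_zero.1 this).resolve_left hα0]
        exact zero_mem _
      · rw [ez]; exact neg_mem (one_mem _)
    rw [show φ r1 = C (j r1) from expHom_of_ker δ hδ j hr1, eval_C] at m1
    rw [show φ r2 = C (j r2) from expHom_of_ker δ hδ j hr2, eval_C] at m2
    obtain ⟨q1, hq1⟩ := Algebra.adjoin_mem_exists_aeval _ _ m1
    obtain ⟨q2, hq2⟩ := Algebra.adjoin_mem_exists_aeval _ _ m2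
    obtain ⟨c, hc⟩ := algebraic_of_rel hα0 q1 q2 (by rw [hq1, hq2, hα, hκr]; ring)
      (by rw [hq2]; exact hj0 hr2')
    apply hxz c
    apply hj
    rw [map_mul, hjc, hc, hjx]

end dan

section top
variable {R : Type*} [CommRing R] [Algebra ℂ R]

/-- coefficientwise derivation -/
noncomputable def mapC (δ : Derivation ℂ R R) : Derivation ℂ R[X] R[X] :=
  PolynomialModule.equivPolynomialSelf.compDer δ.mapCoeffs

theorem mapC_monomial (δ : Derivation ℂ R R) (n : ℕ) (a : R) :
    mapC δ (monomial n a) = monomial n (δ a) := by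
  simp [mapC]

/-- the coefficient derivation -/
noncomputable def coefDer (δ : Derivation ℂ R[X] R[X]) (k : ℕ) : Derivation ℂ R R :=
  Derivation.mk' (((lcoeff R k).restrictScalars ℂ) ∘ₗ δ.toLinearMap ∘ₗ
    (CAlgHom : R →ₐ[ℂ] R[X]).toLinearMap) (by
      intro a b
      simp [Derivation.leibniz])

theorem coefDer_apply (δ : Derivation ℂ R[X] R[X]) (k : ℕ) (a : R) :
    coefDer δ k a = (δ (C a)).coeff k := rfl

/-- the homogeneous derivation with given data -/
noncomputable def hat (δ0 : Derivation ℂ R R) (c : R) (k : ℕ) : Derivation ℂ R[X] R[X] :=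
  (X ^ k : R[X]) • mapC δ0 + (C c * X ^ (k + 1) : R[X]) • (derivative'.restrictScalars ℂ)

theorem hat_monomial (δ0 : Derivation ℂ R R) (c : R) (k n : ℕ) (a : R) :
    hat δ0 c k (monomial n a) = monomial (n + k) (δ0 a + n * a * c) := by
  simp only [hat, Derivation.add_apply, Derivation.smul_apply, mapC_monomial, smul_eq_mul,
    Derivation.restrictScalars_apply, derivative'_apply]
  rcases n with _ | n
  · rw [monomial_zero_left, monomial_zero_left, derivative_C, mul_zero, add_zero, zero_add,
      Nat.cast_zero, zero_mul, zero_mul, add_zero, ← C_mul_X_pow_eq_monomial, mul_comm]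
  · rw [derivative_monomial_succ]
    simp only [← C_mul_X_pow_eq_monomial, map_add, map_mul, map_natCast, Nat.cast_add,
      Nat.cast_one, map_one]
    ring

theorem top_monomial (δ : Derivation ℂ R[X] R[X]) (k : ℕ)
    (hC : ∀ r, (δ (C r)).natDegree ≤ k) (hX : (δ X).natDegree ≤ k + 1) (n : ℕ) (a : R) :
    (δ (monomial n a)).natDegree ≤ n + k ∧
      (δ (monomial n a)).coeff (n + k) = coefDer δ k a + n * a * (δ X).coeff (k + 1) := by
  rcases n with _ | n
  · simpa [coefDer_apply] using hC a
  · have e : δ (monomial (n + 1) a) = X ^ n * (C (((n + 1 : ℕ) : R) * a) * δ X)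
        + X ^ (n + 1) * δ (C a) := by
      rw [← C_mul_X_pow_eq_monomial, Derivation.leibniz, Derivation.leibniz_pow]
      simp only [smul_eq_mul, nsmul_eq_mul, map_mul, map_natCast, Nat.add_sub_cancel]
      ring
    rw [e]
    constructor
    · refine natDegree_add_le_of_degree_le ?_ ?_
      · refine natDegree_mul_le.trans ?_
        have h1 := natDegree_X_pow_le (R := R) n
        have h2 := (natDegree_C_mul_le (((n + 1 : ℕ) : R) * a) (δ X)).trans hX
        omega
      · refine natDegree_mul_le.trans ?_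
        have h1 := natDegree_X_pow_le (R := R) (n + 1)
        have h2 := hC a
        omega
    · rw [coeff_add, show n + 1 + k = (k + 1) + n by ring, coeff_X_pow_mul,
        show k + 1 + n = k + (n + 1) by ring, coeff_X_pow_mul, coeff_C_mul, coefDer_apply]
      ring

theorem top_step (δ : Derivation ℂ R[X] R[X]) (k : ℕ)
    (hC : ∀ r, (δ (C r)).natDegree ≤ k) (hX : (δ X).natDegree ≤ k + 1) (m : ℕ) (f : R[X])
    (hf : f.natDegree ≤ m) :
    (δ f).natDegree ≤ m + k ∧ monomial (m + k) ((δ f).coeff (m + k))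
      = hat (coefDer δ k) ((δ X).coeff (k + 1)) k (monomial m (f.coeff m)) := by
  have e : δ f = ∑ n ∈ Finset.range (m + 1), δ (monomial n (f.coeff n)) := by
    rw [← map_sum, ← as_sum_range' f (m + 1) (by omega)]
  rw [e]
  constructor
  · apply natDegree_sum_le_of_forall_le
    intro n hn
    have := (top_monomial δ k hC hX n (f.coeff n)).1
    have := Finset.mem_range.1 hn
    omega
  · rw [hat_monomial, finsetSum_coeff, Finset.sum_range_succ, (top_monomial δ k hC hX m _).2,
      Finset.sum_eq_zero, zero_add]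
    intro n hn
    apply coeff_eq_zero_of_natDegree_lt
    have := (top_monomial δ k hC hX n (f.coeff n)).1
    have := Finset.mem_range.1 hn
    omega

theorem top_iter (δ : Derivation ℂ R[X] R[X]) (k : ℕ)
    (hC : ∀ r, (δ (C r)).natDegree ≤ k) (hX : (δ X).natDegree ≤ k + 1) (m : ℕ) (f : R[X])
    (hf : f.natDegree ≤ m) (j : ℕ) :
    ((⇑δ)^[j] f).natDegree ≤ m + j * k ∧ monomial (m + j * k) (((⇑δ)^[j] f).coeff (m + j * k))
      = (⇑(hat (coefDer δ k) ((δ X).coeff (k + 1)) k))^[j] (monomial m (f.coeff m)) := by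
  induction j with
  | zero => simpa using hf
  | succ j ih =>
    have := top_step δ k hC hX _ _ ih.1
    rw [Function.iterate_succ_apply', Function.iterate_succ_apply', ← ih.2,
      show m + (j + 1) * k = m + j * k + k by ring]
    exact this

theorem hat_lnd (δ : Derivation ℂ R[X] R[X]) (hδ : IsLND δ) (k : ℕ)
    (hC : ∀ r, (δ (C r)).natDegree ≤ k) (hX : (δ X).natDegree ≤ k + 1) :
    IsLND (hat (coefDer δ k) ((δ X).coeff (k + 1)) k) := by
  intro f
  induction f using Polynomial.induction_on' with
  | add p q hp hq => exact nil_add _ hp hq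
  | monomial n a =>
    obtain ⟨j, hj⟩ := hδ (monomial n a)
    refine ⟨j, ?_⟩
    have := (top_iter δ k hC hX n (monomial n a) (natDegree_monomial_le a) j).2
    rw [hj, coeff_zero, map_zero, coeff_monomial_same] at this
    exact this.symm

end top

section main
variable {R : Type*} [CommRing R] [IsDomain R] [Algebra ℂ R] {x y z : R}

theorem cyl_lemma (hrel : x * y = z * (z + 1)) (hgen : Algebra.adjoin ℂ {x, y, z} = ⊤)
    (hx : x ≠ 0) (hz : z ≠ 0) (hxz : ∀ c : ℂ, x ≠ algebraMap ℂ R c * z)
    (δ : Derivation ℂ R[X] R[X]) (hδ : IsLND δ) (I : Set R[X]) (g : R[X])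
    (hg : g = C (-(2 * x * z)) * X + C (x ^ 3 - z ^ 2)) (hgI : g ∈ I)
    (hI : ∀ i ∈ I, δ i ∈ I) (hI1 : ∀ i ∈ I, ∃ r, C (x ^ 2) * i = g * r)
    (hI2 : ∀ i ∈ I, ∃ r, C (z ^ 2) * i = g * r) : δ = 0 := by
  classical
  have : CharZero R := charZero_of_injective_algebraMap (algebraMap ℂ R).injective
  have h2xz : -(2 * x * z) ≠ 0 := neg_ne_zero.2 (mul_ne_zero (mul_ne_zero two_ne_zero hx) hz)
  have hgd : g.natDegree = 1 := by rw [hg]; exact natDegree_linear h2xz
  have hgl : g.leadingCoeff = -(2 * x * z) := by rw [hg]; exact leadingCoeff_linear h2xz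
  have hg0 : g ≠ 0 := by
    intro h; rw [h, natDegree_zero] at hgd; exact zero_ne_one hgd
  have hex : ∃ k, (∀ r, (δ (C r)).natDegree ≤ k) ∧ (δ X).natDegree ≤ k + 1 := by
    refine ⟨(δ (C x)).natDegree + (δ (C y)).natDegree + (δ (C z)).natDegree + (δ X).natDegree,
      fun r => ?_, by omega⟩
    have hr : r ∈ Algebra.adjoin ℂ {x, y, z} := by rw [hgen]; trivial
    induction hr using Algebra.adjoin_induction with
    | mem a ha =>
      rcases ha with rfl | rfl | rfl <;> omega
    | algebraMap c =>
      rw [show (C (algebraMap ℂ R c) : R[X]) = algebraMap ℂ R[X] c from rfl, δ.map_algebraMap]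
      simp
    | add a b _ _ ha hb =>
      rw [map_add, map_add]; exact natDegree_add_le_of_degree_le ha hb
    | mul a b _ _ ha hb =>
      rw [map_mul, Derivation.leibniz, smul_eq_mul, smul_eq_mul]
      exact natDegree_add_le_of_degree_le ((natDegree_C_mul_le _ _).trans hb)
        ((natDegree_C_mul_le _ _).trans ha)
  obtain ⟨hC, hX⟩ := Nat.find_spec hex
  have hmin := @Nat.find_min _ _ hex
  generalize Nat.find hex = k at hC hX hmin
  set δ0 := coefDer δ k with hδ0
  set c := (δ X).coeff (k + 1) with hc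
  have hlnd : IsLND (hat δ0 c k) := hat_lnd δ hδ k hC hX
  -- the top part vanishes
  have hzero : δ0 = 0 ∧ c = 0 := by
    have hex2 := hlnd (monomial 1 (g.coeff 1))
    have hspec := Nat.find_spec hex2
    have hmin2 := @Nat.find_min _ _ hex2
    generalize Nat.find hex2 = n at hspec hmin2
    have hg1 : g.coeff 1 ≠ 0 := by
      rw [← hgd, coeff_natDegree, hgl]; exact h2xz
    rcases n with _ | n
    · exact absurd (by simpa using hspec) hg1
    have hne := hmin2 (Nat.lt_succ_self n)
    obtain ⟨hdeg, htop⟩ := top_iter δ k hC hX 1 g hgd.le n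
    rw [Function.iterate_succ_apply'] at hspec
    change monomial _ _ = (⇑(hat δ0 c k))^[n] _ at htop
    rw [← htop] at hspec hne
    set i := (⇑δ)^[n] g with hi
    have hiI : i ∈ I := by
      rw [hi]
      clear_value i
      clear hi hdeg htop hspec hne hmin2
      induction n with
      | zero => exact hgI
      | succ n ih => rw [Function.iterate_succ_apply']; exact hI _ ih
    set κ := i.coeff (1 + n * k) with hκ
    have hκ0 : κ ≠ 0 := by
      intro h; apply hne; rw [h, map_zero]
    have hlc : i.leadingCoeff = κ := by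
      rw [leadingCoeff, natDegree_eq_of_le_of_coeff_ne_zero hdeg hκ0]
    have e1 : (monomial (1 + n * k) κ : R[X]) = X * (C κ * X ^ (n * k)) := by
      rw [← C_mul_X_pow_eq_monomial]; ring
    have e2 : (monomial (1 + n * k) κ : R[X]) = C κ * X ^ (1 + n * k) := by
      rw [← C_mul_X_pow_eq_monomial]
    have k1 : hat δ0 c k X = 0 := ker_of_mul _ hlnd (e1 ▸ hne) (e1 ▸ hspec)
    have k2 : hat δ0 c k (C κ) = 0 := ker_of_mul _ hlnd (e2 ▸ hne) (e2 ▸ hspec)
    rw [← monomial_one_one_eq_X, hat_monomial] at k1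
    rw [← monomial_zero_left, hat_monomial] at k2
    have hc0 : c = 0 := by simpa using k1
    have hκδ : δ0 κ = 0 := by simpa using k2
    refine ⟨?_, hc0⟩
    have hlnd0 : IsLND δ0 := by
      intro a
      obtain ⟨j, hj⟩ := hlnd (monomial 0 a)
      refine ⟨j, ?_⟩
      have : ∀ j : ℕ, (⇑(hat δ0 c k))^[j] (monomial 0 a) = monomial (j * k) ((⇑δ0)^[j] a) := by
        intro j
        induction j with
        | zero => simp
        | succ j ih =>
          rw [Function.iterate_succ_apply', Function.iterate_succ_apply', ih, hat_monomial, hc0,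
            mul_zero, add_zero, show j * k + k = (j + 1) * k by ring]
      rw [this] at hj
      simpa using hj
    obtain ⟨r1, hr1⟩ := hI1 i hiI
    obtain ⟨r2, hr2⟩ := hI2 i hiI
    have l1 := congrArg leadingCoeff hr1
    have l2 := congrArg leadingCoeff hr2
    rw [leadingCoeff_mul, leadingCoeff_mul, leadingCoeff_C, hlc, hgl] at l1 l2
    refine dan_lemma hrel hgen hx hz hxz δ0 hlnd0 (r1 := -2 * r1.leadingCoeff)
      (r2 := -2 * r2.leadingCoeff) hκ0 hκδ ?_ ?_
    · apply mul_left_cancel₀ hx; linear_combination l1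
    · apply mul_left_cancel₀ hz; linear_combination l2
  obtain ⟨z1, z2⟩ := hzero
  have hc1 : ∀ r, (δ (C r)).coeff k = 0 := fun r => by
    rw [← coefDer_apply, ← hδ0, z1]; rfl
  rcases k with _ | k
  · have hCr : ∀ r, δ (C r) = 0 := fun r => by
      rw [eq_C_of_natDegree_le_zero (hC r), hc1 r, map_zero]
    have hX0 : (δ X).natDegree ≤ 0 := natDegree_le_pred hX z2
    obtain ⟨c0, hc0⟩ : ∃ c0, δ X = C c0 := ⟨_, eq_C_of_natDegree_le_zero hX0⟩
    by_cases h0 : c0 = 0
    · ext1 f
      induction f using Polynomial.induction_on' with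
      | add p q hp hq => rw [map_add, hp, hq]; simp
      | monomial n a =>
        rw [← C_mul_X_pow_eq_monomial, Derivation.leibniz, Derivation.leibniz_pow, hc0, h0, hCr]
        simp
    · exfalso
      obtain ⟨r, hr⟩ := hI1 _ (hI g hgI)
      have e : δ g = C (-(2 * x * z) * c0) := by
        rw [hg, map_add, Derivation.leibniz, hCr, hCr, hc0]; simp
      rw [e, ← map_mul] at hr
      have hne : x ^ 2 * (-(2 * x * z) * c0) ≠ 0 :=
        mul_ne_zero (pow_ne_zero _ hx) (mul_ne_zero h2xz h0)
      have hr0 : r ≠ 0 := by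
        rintro rfl
        rw [mul_zero, C_eq_zero] at hr
        exact hne hr
      have := congrArg natDegree hr
      rw [natDegree_C, natDegree_mul hg0 hr0, hgd] at this
      omega
  · exfalso
    exact hmin (Nat.lt_succ_self k) ⟨fun r => natDegree_le_pred (hC r) (hc1 r),
      natDegree_le_pred hX z2⟩

end main

end Crest.Agent.R268
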