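import Crest.Agent.R268.LND

/-! The stable coordinate `f = p` on affine four-space: presentation of the polynomial ring. -/

set_option autoImplicit false
set_option linter.unusedSimpArgs false
set_option linter.unusedSectionVars false
set_option linter.dupNamespace false

namespace Crest.Agent.R268.F

open MvPolynomial

abbrev A4 : Type := MvPolynomial (Fin 4) ℂ

noncomputable def xA : A4 := X 1 * (X 1 - 2 * X 2) + X 0 * X 3
noncomputable def pA : A4 := X 0 - 2 * xA * (xA * X 1 + X 0 * X 2)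
noncomputable def sA : A4 := 2 * X 2 ^ 2 * X 0 + (1 + 2 * xA * X 2) * X 1
noncomputable def uA : A4 := xA ^ 2 * X 3 - 2 * X 2 * (X 1 - X 2) * xA - X 0 * X 2 ^ 2 - X 2
noncomputable def FA : A4 := X 3 * (1 + 2 * xA * X 2) - 2 * X 2 ^ 2 * (X 1 - 2 * X 2)

/-- A point of the second presentation of affine four-space. -/
structure Data (S : Type*) [CommRing S] where
  p : S
  s : S
  u : S
  F : S
  J : S
  x : S
  h1 : x = s ^ 2 + 2 * s * u + p * F
  h2 : u + J + p * J ^ 2 + 2 * x * (u + s) * J = x ^ 2 * F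

noncomputable def dA : Data A4 where
  p := pA
  s := sA
  u := uA
  F := FA
  J := X 2
  x := xA
  h1 := by
    have h : xA = X 1 * (X 1 - 2 * X 2) + X 0 * X 3 := rfl
    simp only [pA, sA, uA, FA]
    generalize xA = x at *
    subst h
    ring
  h2 := by
    simp only [pA, sA, uA, FA]
    generalize xA = x at *
    ring

namespace Data
variable {S : Type*} [CommRing S] (d : Data S)

def z : S := d.p * d.J + d.s * d.x
def y : S := d.s + d.x ^ 2 - 2 * d.z * d.u
def YI : S := d.p * (1 + 2 * d.x * d.J) + 2 * d.x ^ 2 * d.s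
def aI : S := -2 * d.p * d.J ^ 2 + (1 - 2 * d.x * d.J) * d.s
def xiI : S := d.F * (1 - 2 * d.x * d.J) + 2 * d.J ^ 2 * (d.s + 2 * d.u)

theorem rel : d.x * d.y - d.z * (d.z + 1) = d.p * d.u := by
  have h1 := d.h1
  have h2 := d.h2
  simp only [y, z]
  linear_combination d.x ^ 2 * h1 - d.p * h2

theorem s_eq : d.s = d.y - d.x ^ 2 + 2 * d.z * d.u := by simp only [y]; ring

/-- push forward along a ring map -/
def map {S' F : Type*} [CommRing S'] [FunLike F S S'] [RingHomClass F S S'] (φ : F) : Data S' where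
  p := φ d.p
  s := φ d.s
  u := φ d.u
  F := φ d.F
  J := φ d.J
  x := φ d.x
  h1 := by simpa [map_ofNat] using congrArg φ d.h1
  h2 := by simpa [map_ofNat] using congrArg φ d.h2

theorem map_z {S' F : Type*} [CommRing S'] [FunLike F S S'] [RingHomClass F S S'] (φ : F) :
    (d.map φ).z = φ d.z := by simp [map, z]

theorem map_y {S' F : Type*} [CommRing S'] [FunLike F S S'] [RingHomClass F S S'] (φ : F) :
    (d.map φ).y = φ d.y := by simp [map, y, z, map_ofNat]

variable [Algebra ℂ S]

noncomputable def lift : A4 →ₐ[ℂ] S := aeval ![d.YI, d.aI, d.J, d.xiI]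

theorem lift_X0 : d.lift (X 0) = d.YI := by simp [lift]
theorem lift_X1 : d.lift (X 1) = d.aI := by simp [lift]
theorem lift_X2 : d.lift (X 2) = d.J := by simp [lift]
theorem lift_X3 : d.lift (X 3) = d.xiI := by simp [lift]

theorem lift_x : d.lift xA = d.x := by
  have h1 := d.h1
  have h2 := d.h2
  simp only [xA, map_add, map_mul, map_sub, map_ofNat, lift_X0, lift_X1, lift_X2, lift_X3,
    YI, aI, xiI]
  linear_combination -h1 + (4 * d.x * d.s * d.J + 4 * d.p * d.J ^ 2 - 2 * d.s) * h2

theorem lift_p : d.lift pA = d.p := by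
  simp only [pA, map_add, map_mul, map_sub, map_ofNat, lift_X0, lift_X1, lift_X2, lift_x, YI, aI]
  ring

theorem lift_s : d.lift sA = d.s := by
  simp only [sA, map_add, map_mul, map_sub, map_ofNat, map_pow, map_one, lift_X0, lift_X1,
    lift_X2, lift_x, YI, aI]
  ring

theorem lift_u : d.lift uA = d.u := by
  have h2 := d.h2
  simp only [uA, map_add, map_mul, map_sub, map_ofNat, map_pow, map_one, lift_X0, lift_X1,
    lift_X2, lift_X3, lift_x, YI, aI, xiI]
  linear_combination (2 * d.x * d.J - 1) * h2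

theorem lift_F : d.lift FA = d.F := by
  have h2 := d.h2
  simp only [FA, map_add, map_mul, map_sub, map_ofNat, map_pow, map_one, lift_X0, lift_X1,
    lift_X2, lift_X3, lift_x, YI, aI, xiI]
  linear_combination (4 * d.J ^ 2) * h2

theorem lift_z : d.lift dA.z = d.z := by
  simp only [z, dA, map_add, map_mul, lift_p, lift_X2, lift_s, lift_x]

theorem lift_y : d.lift dA.y = d.y := by
  have := d.lift_z
  simp only [y, map_add, map_sub, map_mul, map_pow, map_ofNat, this]
  simp only [dA, lift_s, lift_x, lift_u]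

end Data

theorem dA_YI : dA.YI = X 0 := by
  simp only [Data.YI, dA, pA, sA]
  generalize xA = x
  ring

theorem dA_aI : dA.aI = X 1 := by
  simp only [Data.aI, dA, pA, sA]
  generalize xA = x
  ring

theorem dA_xiI : dA.xiI = X 3 := by
  simp only [Data.xiI, dA, FA, uA, sA]
  generalize xA = x
  ring

/-- two algebra maps out of `A4` agreeing on `p, s, u, F, J` agree -/
theorem hom_ext {S : Type*} [CommRing S] [Algebra ℂ S] {φ ψ : A4 →ₐ[ℂ] S}
    (hp : φ pA = ψ pA) (hs : φ sA = ψ sA) (hu : φ uA = ψ uA) (hF : φ FA = ψ FA)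
    (hJ : φ (X 2) = ψ (X 2)) : φ = ψ := by
  have hx : φ xA = ψ xA := by
    have h1 : xA = sA ^ 2 + 2 * sA * uA + pA * FA := dA.h1
    rw [h1]
    simp only [map_add, map_mul, map_pow, map_ofNat, hp, hs, hu, hF]
  apply MvPolynomial.algHom_ext
  intro i
  fin_cases i
  · change φ (X 0) = ψ (X 0)
    rw [← dA_YI]
    simp only [Data.YI, dA, map_add, map_mul, map_pow, map_ofNat, map_one, hp, hs, hx, hJ]
  · change φ (X 1) = ψ (X 1)
    rw [← dA_aI]
    simp only [Data.aI, dA, map_add, map_sub, map_neg, map_mul, map_pow, map_ofNat, map_one,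
      hp, hs, hx, hJ]
  · exact hJ
  · change φ (X 3) = ψ (X 3)
    rw [← dA_xiI]
    simp only [Data.xiI, dA, map_add, map_sub, map_mul, map_pow, map_ofNat, map_one,
      hu, hs, hx, hJ, hF]

/-- an induction principle: `A4` is generated by `p, s, u, F, J` -/
theorem mem_of_gens (B : Subalgebra ℂ A4) (hp : pA ∈ B) (hs : sA ∈ B) (hu : uA ∈ B) (hF : FA ∈ B)
    (hJ : (X 2 : A4) ∈ B) (a : A4) : a ∈ B := by
  let d : Data B :=
    { p := ⟨pA, hp⟩, s := ⟨sA, hs⟩, u := ⟨uA, hu⟩, F := ⟨FA, hF⟩, J := ⟨X 2, hJ⟩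
      x := ⟨sA, hs⟩ ^ 2 + 2 * ⟨sA, hs⟩ * ⟨uA, hu⟩ + ⟨pA, hp⟩ * ⟨FA, hF⟩
      h1 := rfl
      h2 := by
        apply Subtype.ext
        have h1 : xA = sA ^ 2 + 2 * sA * uA + pA * FA := dA.h1
        have h2 : uA + X 2 + pA * X 2 ^ 2 + 2 * xA * (uA + sA) * X 2 = xA ^ 2 * FA := dA.h2
        rw [h1] at h2
        exact h2 }
  have h : B.val.comp d.lift = AlgHom.id ℂ A4 := by
    apply hom_ext
    · simp [Data.lift_p, d]
    · simp [Data.lift_s, d]
    · simp [Data.lift_u, d]
    · simp [Data.lift_F, d]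
    · simp [Data.lift_X2, d]
  have := congrArg (fun φ : A4 →ₐ[ℂ] A4 => φ a) h
  simp only [AlgHom.comp_apply, AlgHom.id_apply, Subalgebra.coe_val] at this
  rw [← this]
  exact (d.lift a).2

/-! ### the chart where `p` is invertible -/
section inv
variable {S : Type*} [CommRing S]

def uI (pi x y z : S) : S := (x * y - z * (z + 1)) * pi
def sI (pi x y z : S) : S := y - x ^ 2 + 2 * z * uI pi x y z
def JI (pi x y z : S) : S := (z - sI pi x y z * x) * pi
def FI (pi x y z : S) : S := (x - sI pi x y z ^ 2 - 2 * sI pi x y z * uI pi x y z) * pi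

def ofInv (p pi x y z : S) (hp : p * pi = 1) : Data S where
  p := p
  s := sI pi x y z
  u := uI pi x y z
  F := FI pi x y z
  J := JI pi x y z
  x := x
  h1 := by
    simp only [FI]
    generalize sI pi x y z = s
    generalize uI pi x y z = u
    linear_combination (-(x - s ^ 2 - 2 * s * u)) * hp
  h2 := by
    have hu : uI pi x y z = (x * y - z * (z + 1)) * pi := rfl
    have hs : sI pi x y z = y - x ^ 2 + 2 * z * uI pi x y z := rfl
    simp only [FI, JI]
    generalize sI pi x y z = s at *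
    generalize uI pi x y z = u at *
    linear_combination hu - x * pi * hs + (z - s * x) ^ 2 * pi * hp

theorem ofInv_z (p pi x y z : S) (hp : p * pi = 1) : (ofInv p pi x y z hp).z = z := by
  simp only [Data.z, ofInv, JI]
  linear_combination (z - sI pi x y z * x) * hp

theorem ofInv_y (p pi x y z : S) (hp : p * pi = 1) : (ofInv p pi x y z hp).y = y := by
  rw [Data.y, ofInv_z]
  simp only [ofInv, sI]
  ring

variable (d : Data S) {pi : S} (hp : d.p * pi = 1)
include hp

theorem uI_eq : uI pi d.x d.y d.z = d.u := by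
  rw [uI, d.rel]; linear_combination d.u * hp

theorem sI_eq : sI pi d.x d.y d.z = d.s := by
  rw [sI, uI_eq d hp, ← d.s_eq]

theorem JI_eq : JI pi d.x d.y d.z = d.J := by
  rw [JI, sI_eq d hp, Data.z]; linear_combination d.J * hp

theorem FI_eq : FI pi d.x d.y d.z = d.F := by
  rw [FI, sI_eq d hp, uI_eq d hp]
  have := d.h1
  linear_combination pi * this + d.F * hp

end inv

section maps
variable {S S' F : Type*} [CommRing S] [CommRing S'] [FunLike F S S'] [RingHomClass F S S'] (φ : F)
theorem map_uI (pi x y z : S) : φ (uI pi x y z) = uI (φ pi) (φ x) (φ y) (φ z) := by simp [uI]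
theorem map_sI (pi x y z : S) : φ (sI pi x y z) = sI (φ pi) (φ x) (φ y) (φ z) := by
  simp [sI, map_uI, map_ofNat]
theorem map_JI (pi x y z : S) : φ (JI pi x y z) = JI (φ pi) (φ x) (φ y) (φ z) := by
  simp [JI, map_sI]
theorem map_FI (pi x y z : S) : φ (FI pi x y z) = FI (φ pi) (φ x) (φ y) (φ z) := by
  simp [FI, map_sI, map_uI, map_ofNat]
end maps

/-- the chart `p = 0` -/
def ofZero {S : Type*} [CommRing S] (s u e : S) : Data S where
  p := 0
  s := s
  u := u
  F := 4 * u * (u + s) ^ 2 + (1 + 2 * (s ^ 2 + 2 * s * u) * (u + s)) * e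
  J := -u * (1 - 2 * (s ^ 2 + 2 * s * u) * (u + s)) + (s ^ 2 + 2 * s * u) ^ 2 * e
  x := s ^ 2 + 2 * s * u
  h1 := by ring
  h2 := by ring

end Crest.Agent.R268.F
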