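import Crest.Agent.R268.FDefs

/-! Fibres of `p` are affine three-spaces, and `p` is a one-stable coordinate. -/

set_option autoImplicit false
set_option linter.unusedSimpArgs false
set_option linter.unusedSectionVars false

namespace Crest.Agent.R268.F

open MvPolynomial

abbrev T3 : Type := MvPolynomial (Fin 3) ℂ

theorem fibre_of (c : ℂ) (d : Data T3) (hd : d.p = C c)
    (bwd : T3 →ₐ[ℂ] (A4 ⧸ Ideal.span {pA - C c}))
    (h1 : ∀ i, ∃ a : A4, bwd (X i) = Ideal.Quotient.mk _ a ∧ d.lift a = X i)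
    (hs : bwd d.s = Ideal.Quotient.mk _ sA) (hu : bwd d.u = Ideal.Quotient.mk _ uA)
    (hF : bwd d.F = Ideal.Quotient.mk _ FA) (hJ : bwd d.J = Ideal.Quotient.mk _ (X 2)) :
    Nonempty ((A4 ⧸ Ideal.span {pA - C c}) ≃ₐ[ℂ] T3) := by
  let fwd : (A4 ⧸ Ideal.span {pA - C c}) →ₐ[ℂ] T3 :=
    Ideal.Quotient.liftₐ _ d.lift (fun a ha => by
      obtain ⟨b, rfl⟩ := Ideal.mem_span_singleton'.1 ha
      rw [map_mul, map_sub, d.lift_p, hd, algHom_C, algebraMap_eq, sub_self, mul_zero])
  have fwd_mk : ∀ a, fwd (Ideal.Quotient.mk _ a) = d.lift a := fun a => rfl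
  have hp : Ideal.Quotient.mk (Ideal.span {pA - C c}) pA = Ideal.Quotient.mk _ (C c) := by
    rw [Ideal.Quotient.eq]; exact Ideal.mem_span_singleton_self _
  refine ⟨AlgEquiv.ofAlgHom fwd bwd ?_ ?_⟩
  · apply MvPolynomial.algHom_ext
    intro i
    obtain ⟨a, ha, ha'⟩ := h1 i
    rw [AlgHom.comp_apply, ha, fwd_mk, ha', AlgHom.id_apply]
  · apply Ideal.Quotient.algHom_ext
    apply hom_ext
    all_goals simp only [AlgHom.comp_apply, Ideal.Quotient.mkₐ_eq_mk, fwd_mk, AlgHom.id_apply,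
      Data.lift_p, Data.lift_s, Data.lift_u, Data.lift_F, Data.lift_X2]
    · rw [hd, hp, algHom_C]; rfl
    · exact hs
    · exact hu
    · exact hF
    · exact hJ

theorem fibre_ne {c : ℂ} (hc : c ≠ 0) : Nonempty ((A4 ⧸ Ideal.span {pA - C c}) ≃ₐ[ℂ] T3) := by
  have hcc : (C c : T3) * C c⁻¹ = 1 := by rw [← map_mul, mul_inv_cancel₀ hc, map_one]
  let mk := Ideal.Quotient.mk (Ideal.span {pA - C c})
  let bwd : T3 →ₐ[ℂ] (A4 ⧸ Ideal.span {pA - C c}) := aeval ![mk xA, mk dA.y, mk dA.z]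
  have b0 : bwd (X 0) = (dA.map mk).x := by simp [bwd, Data.map, dA]
  have b1 : bwd (X 1) = (dA.map mk).y := by simp [bwd, Data.map_y]
  have b2 : bwd (X 2) = (dA.map mk).z := by simp [bwd, Data.map_z]
  have hp : (dA.map mk).p * bwd (C c⁻¹) = 1 := by
    have hp : mk pA = mk (C c) := by
      rw [Ideal.Quotient.eq]; exact Ideal.mem_span_singleton_self _
    change mk pA * _ = 1
    have : mk (C c) = bwd (C c) := by rw [algHom_C]; rfl
    rw [hp, this, ← map_mul, hcc, map_one]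
  refine fibre_of c (ofInv (C c) (C c⁻¹) (X 0) (X 1) (X 2) hcc) rfl bwd ?_ ?_ ?_ ?_ ?_
  · intro i
    fin_cases i
    · exact ⟨xA, by simp [bwd, mk], Data.lift_x _⟩
    · exact ⟨dA.y, by simp [bwd, mk], by rw [Data.lift_y, ofInv_y]; rfl⟩
    · exact ⟨dA.z, by simp [bwd, mk], by rw [Data.lift_z, ofInv_z]; rfl⟩
  · change bwd (sI _ _ _ _) = _
    rw [map_sI, b0, b1, b2, sI_eq _ hp]; rfl
  · change bwd (uI _ _ _ _) = _
    rw [map_uI, b0, b1, b2, uI_eq _ hp]; rfl
  · change bwd (FI _ _ _ _) = _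
    rw [map_FI, b0, b1, b2, FI_eq _ hp]; rfl
  · change bwd (JI _ _ _ _) = _
    rw [map_JI, b0, b1, b2, JI_eq _ hp]; rfl

theorem fibre_zero : Nonempty ((A4 ⧸ Ideal.span {pA - C 0}) ≃ₐ[ℂ] T3) := by
  let mk := Ideal.Quotient.mk (Ideal.span {pA - C 0})
  let eA : A4 := (1 - 2 * xA * (uA + sA)) * FA + 4 * (uA + sA) ^ 2 * X 2
  let bwd : T3 →ₐ[ℂ] (A4 ⧸ Ideal.span {pA - C 0}) := aeval ![mk sA, mk uA, mk eA]
  have b0 : bwd (X 0) = mk sA := by simp [bwd]
  have b1 : bwd (X 1) = mk uA := by simp [bwd]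
  have b2 : bwd (X 2) = (1 - 2 * mk xA * (mk uA + mk sA)) * mk FA
      + 4 * (mk uA + mk sA) ^ 2 * mk (X 2) := by
    simp [bwd, eA, map_ofNat]
  have hp : mk pA = 0 := by
    rw [Ideal.Quotient.eq_zero_iff_mem]
    simp
  have h1 : mk xA = mk sA ^ 2 + 2 * mk sA * mk uA + mk pA * mk FA := (dA.map mk).h1
  have h2 : mk uA + mk (X 2) + mk pA * mk (X 2) ^ 2 + 2 * mk xA * (mk uA + mk sA) * mk (X 2)
      = mk xA ^ 2 * mk FA := (dA.map mk).h2
  rw [hp] at h1 h2
  refine fibre_of 0 (ofZero (X 0) (X 1) (X 2)) (by simp [ofZero]) bwd ?_ b0 b1 ?_ ?_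
  · intro i
    fin_cases i
    · exact ⟨sA, b0, Data.lift_s _⟩
    · exact ⟨uA, b1, Data.lift_u _⟩
    · refine ⟨eA, by simp [bwd, mk], ?_⟩
      simp only [eA, map_add, map_sub, map_mul, map_pow, map_ofNat, map_one, Data.lift_x,
        Data.lift_s, Data.lift_u, Data.lift_F, Data.lift_X2, ofZero, Fin.reduceFinMk]
      ring
  · simp only [ofZero, map_add, map_sub, map_mul, map_pow, map_ofNat, map_one, b0, b1, b2]
    change _ = mk FA
    have h3 : mk sA ^ 2 + 2 * mk sA * mk uA = mk xA := by rw [h1]; ring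
    rw [h3]
    generalize mk xA = x at *
    generalize mk sA = s at *
    generalize mk uA = u at *
    generalize mk FA = F at *
    generalize mk (X 2) = J at *
    linear_combination 4 * (u + s) ^ 2 * h2
  · simp only [ofZero, map_add, map_sub, map_neg, map_mul, map_pow, map_ofNat, map_one, b0, b1, b2]
    change _ = mk (X 2)
    have h3 : mk sA ^ 2 + 2 * mk sA * mk uA = mk xA := by rw [h1]; ring
    rw [h3]
    generalize mk xA = x at *
    generalize mk sA = s at *
    generalize mk uA = u at *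
    generalize mk FA = F at *
    generalize mk (X 2) = J at *
    linear_combination -(1 - 2 * x * (u + s)) * h2

theorem fibres (c : ℂ) : Nonempty ((A4 ⧸ Ideal.span {pA - C c}) ≃ₐ[ℂ] T3) := by
  by_cases hc : c = 0
  · subst hc; exact fibre_zero
  · exact fibre_ne hc

/-! ### stable triviality -/
section stable
variable {S : Type*} [CommRing S]

def xB (p X u1 w : S) : S := w ^ 2 + 2 * w * u1 + p * X
def y2B (p X z2 u1 w : S) : S := xB p X u1 w * z2 - u1
def uB (p X z2 u1 w : S) : S := u1 - p * y2B p X z2 u1 w ^ 2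
def tB (p X z2 u1 w : S) : S :=
  -z2 - 2 * (w + uB p X z2 u1 w) * y2B p X z2 u1 w + xB p X u1 w * (X + 2 * w * y2B p X z2 u1 w ^ 2)
def sB (p X z2 u1 w : S) : S := w - p * tB p X z2 u1 w
def JB (p X z2 u1 w : S) : S := y2B p X z2 u1 w + tB p X z2 u1 w * xB p X u1 w
def FB (p X z2 u1 w : S) : S :=
  X + tB p X z2 u1 w * (sB p X z2 u1 w + w + 2 * uB p X z2 u1 w) + 2 * w * y2B p X z2 u1 w ^ 2

def dB (p X z2 u1 w : S) : Data S where
  p := p
  s := sB p X z2 u1 w
  u := uB p X z2 u1 w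
  F := FB p X z2 u1 w
  J := JB p X z2 u1 w
  x := xB p X u1 w
  h1 := by
    have g1 : xB p X u1 w = w ^ 2 + 2 * w * u1 + p * X := rfl
    simp only [FB, sB, tB, uB]
    generalize y2B p X z2 u1 w = y2 at *
    generalize xB p X u1 w = x at *
    linear_combination g1
  h2 := by
    have g2 : y2B p X z2 u1 w = xB p X u1 w * z2 - u1 := rfl
    simp only [FB, JB, sB, tB, uB]
    generalize y2B p X z2 u1 w = y2 at *
    generalize xB p X u1 w = x at *
    linear_combination g2

variable (d : Data S) (t : S)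
def wF : S := d.s + d.p * t
def y2F : S := d.J - t * d.x
def z2F : S := d.x * d.F - 2 * d.J * d.u - 2 * d.s * d.J - t * (1 + 2 * d.p * d.J) + d.p * t ^ 2 * d.x
def u1F : S := d.u + d.p * y2F d t ^ 2
def XF : S := d.F - t * (d.s + wF d t) - 2 * t * d.u - 2 * wF d t * y2F d t ^ 2

theorem fb_x : xB d.p (XF d t) (u1F d t) (wF d t) = d.x := by
  have h1 := d.h1
  simp only [xB, XF, u1F, wF, y2F]
  linear_combination -h1

theorem fb_y2 : y2B d.p (XF d t) (z2F d t) (u1F d t) (wF d t) = y2F d t := by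
  have h2 := d.h2
  rw [y2B, fb_x]
  simp only [z2F, u1F, y2F]
  linear_combination -h2

theorem fb_u : uB d.p (XF d t) (z2F d t) (u1F d t) (wF d t) = d.u := by
  rw [uB, fb_y2, u1F]; ring

theorem fb_t : tB d.p (XF d t) (z2F d t) (u1F d t) (wF d t) = t := by
  rw [tB, fb_u, fb_y2, fb_x]
  simp only [z2F, XF, wF, y2F]; ring

theorem fb_s : sB d.p (XF d t) (z2F d t) (u1F d t) (wF d t) = d.s := by
  rw [sB, fb_t, wF]; ring

theorem fb_J : JB d.p (XF d t) (z2F d t) (u1F d t) (wF d t) = d.J := by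
  rw [JB, fb_t, fb_y2, fb_x, y2F]; ring

theorem fb_F : FB d.p (XF d t) (z2F d t) (u1F d t) (wF d t) = d.F := by
  rw [FB, fb_t, fb_y2, fb_s, fb_u, XF]; ring

variable (p X z2 u1 w : S)

theorem bf_w : wF (dB p X z2 u1 w) (tB p X z2 u1 w) = w := by
  simp only [wF, dB, sB]; ring

theorem bf_y2 : y2F (dB p X z2 u1 w) (tB p X z2 u1 w) = y2B p X z2 u1 w := by
  simp only [y2F, dB, JB]; ring

theorem bf_u1 : u1F (dB p X z2 u1 w) (tB p X z2 u1 w) = u1 := by
  rw [u1F, bf_y2]; simp only [dB, uB]; ring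

theorem bf_X : XF (dB p X z2 u1 w) (tB p X z2 u1 w) = X := by
  rw [XF, bf_y2, bf_w]; simp only [dB, FB]; ring

theorem bf_z2 : z2F (dB p X z2 u1 w) (tB p X z2 u1 w) = z2 := by
  simp only [z2F, dB, FB, JB, sB, tB, uB]
  generalize y2B p X z2 u1 w = y2
  generalize xB p X u1 w = x
  ring

end stable

section maps
variable {S S' F : Type*} [CommRing S] [CommRing S'] [FunLike F S S'] [RingHomClass F S S'] (φ : F)
variable (p X z2 u1 w : S)
theorem map_xB : φ (xB p X u1 w) = xB (φ p) (φ X) (φ u1) (φ w) := by simp [xB, map_ofNat]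
theorem map_y2B : φ (y2B p X z2 u1 w) = y2B (φ p) (φ X) (φ z2) (φ u1) (φ w) := by
  simp [y2B, map_xB]
theorem map_uB : φ (uB p X z2 u1 w) = uB (φ p) (φ X) (φ z2) (φ u1) (φ w) := by
  simp [uB, map_y2B]
theorem map_tB : φ (tB p X z2 u1 w) = tB (φ p) (φ X) (φ z2) (φ u1) (φ w) := by
  simp [tB, map_y2B, map_uB, map_xB, map_ofNat]
theorem map_sB : φ (sB p X z2 u1 w) = sB (φ p) (φ X) (φ z2) (φ u1) (φ w) := by
  simp [sB, map_tB]
theorem map_JB : φ (JB p X z2 u1 w) = JB (φ p) (φ X) (φ z2) (φ u1) (φ w) := by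
  simp [JB, map_tB, map_y2B, map_xB]
theorem map_FB : φ (FB p X z2 u1 w) = FB (φ p) (φ X) (φ z2) (φ u1) (φ w) := by
  simp [FB, map_tB, map_y2B, map_sB, map_uB, map_ofNat]
variable (d : Data S) (t : S)
theorem map_wF : φ (wF d t) = wF (d.map φ) (φ t) := by simp [wF, Data.map]
theorem map_y2F : φ (y2F d t) = y2F (d.map φ) (φ t) := by simp [y2F, Data.map]
theorem map_z2F : φ (z2F d t) = z2F (d.map φ) (φ t) := by simp [z2F, Data.map, map_ofNat]
theorem map_u1F : φ (u1F d t) = u1F (d.map φ) (φ t) := by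
  rw [u1F, u1F, ← map_y2F]; simp [Data.map]
theorem map_XF : φ (XF d t) = XF (d.map φ) (φ t) := by
  rw [XF, XF, ← map_y2F, ← map_wF]; simp [Data.map, map_ofNat]
end maps

theorem Data.ext' {S : Type*} [CommRing S] {d e : Data S} (hp : d.p = e.p) (hs : d.s = e.s)
    (hu : d.u = e.u) (hF : d.F = e.F) (hJ : d.J = e.J) (hx : d.x = e.x) : d = e := by
  cases d; cases e; simp_all

abbrev A5 : Type := Polynomial A4

noncomputable def v (i : Fin 4) : A5 := Polynomial.C (X i)
noncomputable def dBA : Data A5 := dB (v 0) (v 1) (v 2) (v 3) Polynomial.X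
noncomputable def dA5 : Data A5 := dA.map (Polynomial.C : A4 →+* A5)

noncomputable def sigma : A5 →ₐ[ℂ] A5 :=
  Polynomial.eval₂AlgHom dBA.lift (tB (v 0) (v 1) (v 2) (v 3) Polynomial.X)
    (fun _ => Commute.all _ _)

noncomputable def theta : A5 →ₐ[ℂ] A5 :=
  Polynomial.eval₂AlgHom
    (aeval ![dA5.p, XF dA5 Polynomial.X, z2F dA5 Polynomial.X, u1F dA5 Polynomial.X])
    (wF dA5 Polynomial.X) (fun _ => Commute.all _ _)

theorem sigma_C (a : A4) : sigma (Polynomial.C a) = dBA.lift a := by simp [sigma]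
theorem sigma_X : sigma Polynomial.X = tB (v 0) (v 1) (v 2) (v 3) Polynomial.X := by simp [sigma]
theorem theta_v0 : theta (v 0) = dA5.p := by simp [theta, v]
theorem theta_v1 : theta (v 1) = XF dA5 Polynomial.X := by simp [theta, v]
theorem theta_v2 : theta (v 2) = z2F dA5 Polynomial.X := by simp [theta, v]
theorem theta_v3 : theta (v 3) = u1F dA5 Polynomial.X := by simp [theta, v]
theorem theta_X : theta Polynomial.X = wF dA5 Polynomial.X := by simp [theta]

theorem map_sigma : dA5.map sigma = dBA := by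
  apply Data.ext'
  · exact (sigma_C _).trans dBA.lift_p
  · exact (sigma_C _).trans dBA.lift_s
  · exact (sigma_C _).trans dBA.lift_u
  · exact (sigma_C _).trans dBA.lift_F
  · exact (sigma_C _).trans dBA.lift_X2
  · exact (sigma_C _).trans dBA.lift_x

theorem sigma_theta : sigma.comp theta = AlgHom.id ℂ A5 := by
  apply Polynomial.algHom_ext'
  · apply MvPolynomial.algHom_ext
    intro i
    change sigma (theta (v i)) = v i
    fin_cases i
    · change sigma (theta (v 0)) = v 0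
      rw [theta_v0]
      exact congrArg Data.p map_sigma
    · change sigma (theta (v 1)) = v 1
      rw [theta_v1, map_XF, map_sigma, sigma_X]; exact bf_X _ _ _ _ _
    · change sigma (theta (v 2)) = v 2
      rw [theta_v2, map_z2F, map_sigma, sigma_X]; exact bf_z2 _ _ _ _ _
    · change sigma (theta (v 3)) = v 3
      rw [theta_v3, map_u1F, map_sigma, sigma_X]; exact bf_u1 _ _ _ _ _
  · change sigma (theta Polynomial.X) = Polynomial.X
    rw [theta_X, map_wF, map_sigma, sigma_X]; exact bf_w _ _ _ _ _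

theorem theta_sigma : theta.comp sigma = AlgHom.id ℂ A5 := by
  apply Polynomial.algHom_ext'
  · apply hom_ext
    · change theta (sigma (Polynomial.C pA)) = Polynomial.C pA
      rw [sigma_C, Data.lift_p]; exact theta_v0
    · change theta (sigma (Polynomial.C sA)) = Polynomial.C sA
      rw [sigma_C, Data.lift_s]
      change theta (sB _ _ _ _ _) = _
      rw [map_sB, theta_v0, theta_v1, theta_v2, theta_v3, theta_X, fb_s]; rfl
    · change theta (sigma (Polynomial.C uA)) = Polynomial.C uA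
      rw [sigma_C, Data.lift_u]
      change theta (uB _ _ _ _ _) = _
      rw [map_uB, theta_v0, theta_v1, theta_v2, theta_v3, theta_X, fb_u]; rfl
    · change theta (sigma (Polynomial.C FA)) = Polynomial.C FA
      rw [sigma_C, Data.lift_F]
      change theta (FB _ _ _ _ _) = _
      rw [map_FB, theta_v0, theta_v1, theta_v2, theta_v3, theta_X, fb_F]; rfl
    · change theta (sigma (Polynomial.C (X 2))) = Polynomial.C (X 2)
      rw [sigma_C, Data.lift_X2]
      change theta (JB _ _ _ _ _) = _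
      rw [map_JB, theta_v0, theta_v1, theta_v2, theta_v3, theta_X, fb_J]; rfl
  · change theta (sigma Polynomial.X) = Polynomial.X
    rw [sigma_X, map_tB, theta_v0, theta_v1, theta_v2, theta_v3, theta_X, fb_t]

theorem stable : ∃ σ : A5 ≃ₐ[ℂ] A5, σ (Polynomial.C pA) = Polynomial.C (X 0) :=
  ⟨AlgEquiv.ofAlgHom sigma theta sigma_theta theta_sigma, by
    change sigma (Polynomial.C pA) = _
    rw [sigma_C, Data.lift_p]; rfl⟩

end Crest.Agent.R268.F
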