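import Crest.Agent.R268.LND

/-! The polynomial `G` on affine four-space with generic fibre affine three-space and a
critical point: definitions and ring identities. -/

set_option autoImplicit false
set_option linter.unusedSimpArgs false
set_option linter.unusedSectionVars false

namespace Crest.Agent.R268.G

section defs
variable {S : Type*} [CommRing S]

def xx (h u v : S) : S := u ^ 3 + h * v
def yy (h u w : S) : S := -u ^ 2 + h * w
def ss (h u v w : S) : S :=
  2 * u ^ 3 * v + 3 * u ^ 4 * w + h * (v ^ 2 - 3 * u ^ 2 * w ^ 2) + h ^ 2 * w ^ 3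
def qF (x y s : S) : S := 2 * s ^ 2 * x - 3 * s * y ^ 2 + 3 * s ^ 3 * y
def mF (x y s : S) : S := 3 * x * y + 2 * y ^ 2 * s - 3 * s ^ 2 * x
def W0 (h x y s : S) : S :=
  h * y + 4 * x * y * s ^ 2 - 6 * y ^ 3 * s + 15 * y ^ 2 * s ^ 3 - 14 * y * s ^ 5 + 9 * s ^ 7
def V0 (h x y s : S) : S :=
  h ^ 2 * x + 6 * h * x ^ 2 * s ^ 2 - 9 * h * x * y ^ 2 * s + 9 * h * x * y * s ^ 3
    + 12 * x ^ 3 * s ^ 4 - 36 * x ^ 2 * y ^ 2 * s ^ 3 + 36 * x ^ 2 * y * s ^ 5 + 8 * x ^ 2 * s ^ 7
    + 27 * x * y ^ 4 * s ^ 2 - 81 * x * y ^ 3 * s ^ 4 + 72 * x * y ^ 2 * s ^ 6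
    - 45 * x * y * s ^ 8 + 27 * x * s ^ 10 - 8 * y ^ 3 * s ^ 7
def GG (h u v w : S) : S := h + qF (xx h u v) (yy h u w) (ss h u v w)
def XX (h u v w : S) : S := xx h u v + ss h u v w ^ 3
def YY (h u v w : S) : S := yy h u w - ss h u v w ^ 2
def TT (h u v w : S) : S :=
  u + 2 * ss h u v w ^ 2 * (u * v + 2 * u ^ 2 * w - h * w ^ 2)
    - 3 * ss h u v w * YY h u v w * (u * w + v)

def sI (gi X Y : S) : S := (X ^ 2 + Y ^ 3) * gi
def xI (gi X Y : S) : S := X - sI gi X Y ^ 3
def yI (gi X Y : S) : S := Y + sI gi X Y ^ 2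
def hI (g gi X Y : S) : S := g - qF (xI gi X Y) (yI gi X Y) (sI gi X Y)
def smI (gi X Y : S) : S := sI gi X Y * mF (xI gi X Y) (yI gi X Y) (sI gi X Y)
def uI (g gi X Y T : S) : S := (hI g gi X Y * T + smI gi X Y) * gi
def wI (g gi X Y T : S) : S :=
  (W0 (hI g gi X Y) (xI gi X Y) (yI gi X Y) (sI gi X Y) + 2 * T * smI gi X Y
    + hI g gi X Y * T ^ 2) * gi ^ 2
def vI (g gi X Y T : S) : S :=
  (V0 (hI g gi X Y) (xI gi X Y) (yI gi X Y) (sI gi X Y) - 3 * T * smI gi X Y ^ 2
    - 3 * hI g gi X Y * T ^ 2 * smI gi X Y - hI g gi X Y ^ 2 * T ^ 3) * gi ^ 3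

theorem cusp (h u v w : S) : xx h u v ^ 2 + yy h u w ^ 3 = h * ss h u v w := by
  simp only [xx, yy, ss]; ring

theorem cusp' (h u v w : S) : XX h u v w ^ 2 + YY h u v w ^ 3 = ss h u v w * GG h u v w := by
  have := cusp h u v w
  simp only [XX, YY, GG, qF]
  linear_combination this

theorem id_u (h u v w : S) :
    GG h u v w * u = h * TT h u v w + ss h u v w * mF (xx h u v) (yy h u w) (ss h u v w) := by
  simp only [GG, TT, YY, qF, mF]
  generalize ss h u v w = s
  simp only [xx, yy]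
  ring

theorem W0_spec {h x y s : S} (hr : x ^ 2 + y ^ 3 = h * s) :
    (h + qF x y s) ^ 2 * y + (s * mF x y s) ^ 2 = h * W0 h x y s := by
  simp only [qF, mF, W0]
  linear_combination (9 * y ^ 2 * s ^ 2 - 14 * y * s ^ 4 + 9 * s ^ 6) * hr

theorem V0_spec {h x y s : S} (hr : x ^ 2 + y ^ 3 = h * s) :
    (h + qF x y s) ^ 3 * x - (s * mF x y s) ^ 3 = h * V0 h x y s := by
  simp only [qF, mF, V0]
  linear_combination (8 * x ^ 2 * s ^ 6 - 27 * x * y ^ 3 * s ^ 3 + 45 * x * y ^ 2 * s ^ 5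
    - 45 * x * y * s ^ 7 + 27 * x * s ^ 9 - 8 * y ^ 3 * s ^ 6) * hr

theorem id_w [IsDomain S] {h : S} (hh : h ≠ 0) (u v w : S) :
    GG h u v w ^ 2 * w = W0 h (xx h u v) (yy h u w) (ss h u v w)
      + 2 * TT h u v w * (ss h u v w * mF (xx h u v) (yy h u w) (ss h u v w))
      + h * TT h u v w ^ 2 := by
  apply mul_left_cancel₀ hh
  have h1 := W0_spec (cusp h u v w)
  have h2 := id_u h u v w
  have h3 : yy h u w = -u ^ 2 + h * w := rfl
  change GG h u v w ^ 2 * _ + _ = _ at h1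
  generalize GG h u v w = g at *
  generalize ss h u v w * mF (xx h u v) (yy h u w) (ss h u v w) = m at *
  generalize W0 h (xx h u v) (yy h u w) (ss h u v w) = W at *
  generalize TT h u v w = T at *
  generalize yy h u w = y at *
  subst h3
  linear_combination h1 + (g * u + h * T + m) * h2

theorem id_v [IsDomain S] {h : S} (hh : h ≠ 0) (u v w : S) :
    GG h u v w ^ 3 * v = V0 h (xx h u v) (yy h u w) (ss h u v w)
      - 3 * TT h u v w * (ss h u v w * mF (xx h u v) (yy h u w) (ss h u v w)) ^ 2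
      - 3 * h * TT h u v w ^ 2 * (ss h u v w * mF (xx h u v) (yy h u w) (ss h u v w))
      - h ^ 2 * TT h u v w ^ 3 := by
  apply mul_left_cancel₀ hh
  have h1 := V0_spec (cusp h u v w)
  have h2 := id_u h u v w
  have h3 : xx h u v = u ^ 3 + h * v := rfl
  change GG h u v w ^ 3 * _ - _ = _ at h1
  generalize GG h u v w = g at *
  generalize ss h u v w * mF (xx h u v) (yy h u w) (ss h u v w) = m at *
  generalize V0 h (xx h u v) (yy h u w) (ss h u v w) = W at *
  generalize TT h u v w = T at *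
  generalize xx h u v = x at *
  subst h3
  linear_combination h1 - ((g * u) ^ 2 + (g * u) * (h * T + m) + (h * T + m) ^ 2) * h2

/-! ### backward identities -/
section back
variable {g gi : S} (hg : g * gi = 1) (X Y T : S)
include hg

theorem cuspI : xI gi X Y ^ 2 + yI gi X Y ^ 3 = hI g gi X Y * sI gi X Y := by
  have h1 : sI gi X Y * g = X ^ 2 + Y ^ 3 := by
    simp only [sI]; linear_combination (X ^ 2 + Y ^ 3) * hg
  simp only [xI, yI, hI, qF]
  generalize sI gi X Y = s at *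
  linear_combination -h1

theorem back_x : xx (hI g gi X Y) (uI g gi X Y T) (vI g gi X Y T) = xI gi X Y := by
  have h1 := V0_spec (cuspI hg X Y)
  have h2 : hI g gi X Y + qF (xI gi X Y) (yI gi X Y) (sI gi X Y) = g := by simp [hI]
  rw [h2] at h1
  change g ^ 3 * _ - smI gi X Y ^ 3 = _ at h1
  simp only [xx, uI, vI]
  generalize V0 (hI g gi X Y) (xI gi X Y) (yI gi X Y) (sI gi X Y) = V at *
  generalize hI g gi X Y = h at *
  generalize smI gi X Y = m at *
  generalize xI gi X Y = x at *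
  linear_combination (-gi ^ 3) * h1 + x * (g ^ 2 * gi ^ 2 + g * gi + 1) * hg

theorem back_y : yy (hI g gi X Y) (uI g gi X Y T) (wI g gi X Y T) = yI gi X Y := by
  have h1 := W0_spec (cuspI hg X Y)
  have h2 : hI g gi X Y + qF (xI gi X Y) (yI gi X Y) (sI gi X Y) = g := by simp [hI]
  rw [h2] at h1
  change g ^ 2 * _ + smI gi X Y ^ 2 = _ at h1
  simp only [yy, uI, wI]
  generalize W0 (hI g gi X Y) (xI gi X Y) (yI gi X Y) (sI gi X Y) = V at *
  generalize hI g gi X Y = h at *
  generalize smI gi X Y = m at *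
  generalize yI gi X Y = y at *
  linear_combination (-gi ^ 2) * h1 + y * (g * gi + 1) * hg

variable [IsDomain S] (hh : hI g gi X Y ≠ 0)
include hh

theorem back_s :
    ss (hI g gi X Y) (uI g gi X Y T) (vI g gi X Y T) (wI g gi X Y T) = sI gi X Y := by
  apply mul_left_cancel₀ hh
  rw [← cusp, back_x hg, back_y hg, cuspI hg]

theorem back_G : GG (hI g gi X Y) (uI g gi X Y T) (vI g gi X Y T) (wI g gi X Y T) = g := by
  rw [GG, back_x hg, back_y hg, back_s hg X Y T hh]
  simp [hI]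

theorem back_X : XX (hI g gi X Y) (uI g gi X Y T) (vI g gi X Y T) (wI g gi X Y T) = X := by
  rw [XX, back_x hg, back_s hg X Y T hh]
  simp [xI]

theorem back_Y : YY (hI g gi X Y) (uI g gi X Y T) (vI g gi X Y T) (wI g gi X Y T) = Y := by
  rw [YY, back_y hg, back_s hg X Y T hh]
  simp [yI]

theorem back_T : TT (hI g gi X Y) (uI g gi X Y T) (vI g gi X Y T) (wI g gi X Y T) = T := by
  apply mul_left_cancel₀ hh
  have h1 := id_u (hI g gi X Y) (uI g gi X Y T) (vI g gi X Y T) (wI g gi X Y T)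
  rw [back_G hg X Y T hh, back_x hg, back_y hg, back_s hg X Y T hh] at h1
  change _ = _ + smI gi X Y at h1
  have h2 : uI g gi X Y T = (hI g gi X Y * T + smI gi X Y) * gi := rfl
  generalize TT (hI g gi X Y) (uI g gi X Y T) (vI g gi X Y T) (wI g gi X Y T) = T' at *
  generalize uI g gi X Y T = u at *
  generalize hI g gi X Y = h at *
  generalize smI gi X Y = m at *
  subst h2
  linear_combination -h1 + (h * T + m) * hg

end back

/-! ### forward identities -/
section forth
variable {h u v w gi : S} (hg : GG h u v w * gi = 1)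
include hg

theorem forth_s : sI gi (XX h u v w) (YY h u v w) = ss h u v w := by
  rw [sI, cusp', mul_assoc, hg, mul_one]

theorem forth_x : xI gi (XX h u v w) (YY h u v w) = xx h u v := by
  rw [xI, forth_s hg]; simp [XX]

theorem forth_y : yI gi (XX h u v w) (YY h u v w) = yy h u w := by
  rw [yI, forth_s hg]; simp [YY]

theorem forth_h : hI (GG h u v w) gi (XX h u v w) (YY h u v w) = h := by
  rw [hI, forth_s hg, forth_x hg, forth_y hg]; simp [GG]

theorem forth_sm : smI gi (XX h u v w) (YY h u v w)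
    = ss h u v w * mF (xx h u v) (yy h u w) (ss h u v w) := by
  rw [smI, forth_s hg, forth_x hg, forth_y hg]

theorem forth_u : uI (GG h u v w) gi (XX h u v w) (YY h u v w) (TT h u v w) = u := by
  rw [uI, forth_h hg, forth_sm hg, ← id_u]
  linear_combination u * hg

theorem forth_w (hw : GG h u v w ^ 2 * w = W0 h (xx h u v) (yy h u w) (ss h u v w)
      + 2 * TT h u v w * (ss h u v w * mF (xx h u v) (yy h u w) (ss h u v w))
      + h * TT h u v w ^ 2) :
    wI (GG h u v w) gi (XX h u v w) (YY h u v w) (TT h u v w) = w := by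
  rw [wI, forth_h hg, forth_sm hg, forth_s hg, forth_x hg, forth_y hg, ← hw]
  linear_combination w * (GG h u v w * gi + 1) * hg

theorem forth_v (hv : GG h u v w ^ 3 * v = V0 h (xx h u v) (yy h u w) (ss h u v w)
      - 3 * TT h u v w * (ss h u v w * mF (xx h u v) (yy h u w) (ss h u v w)) ^ 2
      - 3 * h * TT h u v w ^ 2 * (ss h u v w * mF (xx h u v) (yy h u w) (ss h u v w))
      - h ^ 2 * TT h u v w ^ 3) :
    vI (GG h u v w) gi (XX h u v w) (YY h u v w) (TT h u v w) = v := by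
  rw [vI, forth_h hg, forth_sm hg, forth_s hg, forth_x hg, forth_y hg, ← hv]
  linear_combination v * ((GG h u v w * gi) ^ 2 + GG h u v w * gi + 1) * hg

end forth

end defs

section maps
variable {S S' F : Type*} [CommRing S] [CommRing S'] [FunLike F S S'] [RingHomClass F S S'] (φ : F)

theorem map_xx (h u v : S) : φ (xx h u v) = xx (φ h) (φ u) (φ v) := by simp [xx]
theorem map_yy (h u w : S) : φ (yy h u w) = yy (φ h) (φ u) (φ w) := by simp [yy]
theorem map_ss (h u v w : S) : φ (ss h u v w) = ss (φ h) (φ u) (φ v) (φ w) := by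
  simp [ss, map_ofNat]
theorem map_qF (x y s : S) : φ (qF x y s) = qF (φ x) (φ y) (φ s) := by simp [qF, map_ofNat]
theorem map_mF (x y s : S) : φ (mF x y s) = mF (φ x) (φ y) (φ s) := by simp [mF, map_ofNat]
theorem map_W0 (h x y s : S) : φ (W0 h x y s) = W0 (φ h) (φ x) (φ y) (φ s) := by
  simp [W0, map_ofNat]
theorem map_V0 (h x y s : S) : φ (V0 h x y s) = V0 (φ h) (φ x) (φ y) (φ s) := by
  simp [V0, map_ofNat]
theorem map_GG (h u v w : S) : φ (GG h u v w) = GG (φ h) (φ u) (φ v) (φ w) := by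
  simp [GG, map_qF, map_xx, map_yy, map_ss]
theorem map_XX (h u v w : S) : φ (XX h u v w) = XX (φ h) (φ u) (φ v) (φ w) := by
  simp [XX, map_xx, map_ss]
theorem map_YY (h u v w : S) : φ (YY h u v w) = YY (φ h) (φ u) (φ v) (φ w) := by
  simp [YY, map_yy, map_ss]
theorem map_TT (h u v w : S) : φ (TT h u v w) = TT (φ h) (φ u) (φ v) (φ w) := by
  simp [TT, map_YY, map_ss, map_ofNat]
theorem map_sI (gi X Y : S) : φ (sI gi X Y) = sI (φ gi) (φ X) (φ Y) := by simp [sI]
theorem map_xI (gi X Y : S) : φ (xI gi X Y) = xI (φ gi) (φ X) (φ Y) := by simp [xI, map_sI]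
theorem map_yI (gi X Y : S) : φ (yI gi X Y) = yI (φ gi) (φ X) (φ Y) := by simp [yI, map_sI]
theorem map_hI (g gi X Y : S) : φ (hI g gi X Y) = hI (φ g) (φ gi) (φ X) (φ Y) := by
  simp [hI, map_qF, map_xI, map_yI, map_sI]
theorem map_smI (gi X Y : S) : φ (smI gi X Y) = smI (φ gi) (φ X) (φ Y) := by
  simp [smI, map_mF, map_xI, map_yI, map_sI]
theorem map_uI (g gi X Y T : S) : φ (uI g gi X Y T) = uI (φ g) (φ gi) (φ X) (φ Y) (φ T) := by
  simp [uI, map_hI, map_smI]
theorem map_wI (g gi X Y T : S) : φ (wI g gi X Y T) = wI (φ g) (φ gi) (φ X) (φ Y) (φ T) := by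
  simp [wI, map_hI, map_smI, map_W0, map_xI, map_yI, map_sI, map_ofNat]
theorem map_vI (g gi X Y T : S) : φ (vI g gi X Y T) = vI (φ g) (φ gi) (φ X) (φ Y) (φ T) := by
  simp [vI, map_hI, map_smI, map_V0, map_xI, map_yI, map_sI, map_ofNat]

end maps

/-- Forward identities after applying a ring map from a domain in which `h ≠ 0`. -/
theorem forth_all {S S' : Type*} [CommRing S] [IsDomain S] [CommRing S'] (φ : S →+* S')
    {h : S} (hh : h ≠ 0) (u v w : S) {gi : S'} (hg : φ (GG h u v w) * gi = 1) :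
    hI (φ (GG h u v w)) gi (φ (XX h u v w)) (φ (YY h u v w)) = φ h ∧
    uI (φ (GG h u v w)) gi (φ (XX h u v w)) (φ (YY h u v w)) (φ (TT h u v w)) = φ u ∧
    vI (φ (GG h u v w)) gi (φ (XX h u v w)) (φ (YY h u v w)) (φ (TT h u v w)) = φ v ∧
    wI (φ (GG h u v w)) gi (φ (XX h u v w)) (φ (YY h u v w)) (φ (TT h u v w)) = φ w := by
  have hw := congrArg φ (id_w hh u v w)
  have hv := congrArg φ (id_v hh u v w)
  simp only [map_add, map_sub, map_mul, map_pow, map_ofNat, map_GG, map_TT, map_W0, map_V0,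
    map_ss, map_xx, map_yy, map_mF] at hw hv
  rw [map_GG] at hg
  rw [map_GG, map_XX, map_YY, map_TT]
  exact ⟨forth_h hg, forth_u hg, forth_v hg hv, forth_w hg hw⟩

/-- The critical point. -/
theorem crit {S : Type*} [CommRing S] [Algebra ℂ S] (D : Derivation ℂ S S) (ev : S →+* ℂ)
    {h u v w : S} (eh : ev h = 2) (eu : ev u = 0) (ev' : ev v = -1 / 2) (ew : ev w = 1 / 2) :
    ev (GG h u v w) = 0 ∧ ev (D (GG h u v w)) = 0 := by
  have hs : ev (ss h u v w) = 1 := by
    rw [map_ss, eh, eu, ev', ew, ss]; norm_num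
  have hx : ev (xx h u v) = -1 := by
    rw [map_xx, eh, eu, ev', xx]; norm_num
  have hy : ev (yy h u w) = 1 := by
    rw [map_yy, eh, eu, ew, yy]; norm_num
  have hG : ev (GG h u v w) = 0 := by
    rw [GG, map_add, map_qF, hs, hx, hy, eh, qF]; norm_num
  have hX : ev (XX h u v w) = 0 := by
    rw [XX, map_add, map_pow, hs, hx]; norm_num
  have hY : ev (YY h u v w) = 0 := by
    rw [YY, map_sub, map_pow, hs, hy]; norm_num
  refine ⟨hG, ?_⟩
  have h1 := congrArg (fun a => ev (D a)) (cusp' h u v w)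
  simp only [map_add, Derivation.leibniz, Derivation.leibniz_pow, smul_eq_mul, nsmul_eq_mul,
    map_mul, map_pow, hs, hG, hX, hY] at h1
  simpa using h1.symm

/-- A polynomial with a critical point is not a coordinate. -/
theorem not_coord_of_crit {σ : Type*} [Fintype σ] (g : MvPolynomial σ ℂ)
    (ev : MvPolynomial σ ℂ →+* ℂ) (hc : ∀ i, ev (MvPolynomial.pderiv i g) = 0) (i₀ : σ) :
    ¬ ∃ τ : MvPolynomial σ ℂ ≃ₐ[ℂ] MvPolynomial σ ℂ, τ g = MvPolynomial.X i₀ := by
  rintro ⟨τ, hτ⟩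
  have h1 : MvPolynomial.pderiv i₀ (τ g) = ∑ i, τ (MvPolynomial.pderiv i g) *
      MvPolynomial.pderiv i₀ (τ (MvPolynomial.X i)) :=
    chain_rule (MvPolynomial.pderiv i₀) τ.toAlgHom g
  rw [hτ, MvPolynomial.pderiv_X_self] at h1
  have h2 := congrArg (fun a => ev (τ.symm a)) h1
  simp [map_sum, hc] at h2

end Crest.Agent.R268.G
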