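import Mathlib

/-! Basic facts on locally nilpotent derivations: Leibniz formula, exponential map. -/

set_option autoImplicit false
set_option linter.unusedSimpArgs false
set_option linter.unusedSectionVars false

namespace Crest.Agent.R268

open Polynomial

section basic
variable {k S : Type*} [CommRing k] [CommRing S] [Algebra k S]

/-- local nilpotency -/
def IsLND (D : Derivation k S S) : Prop := ∀ a : S, ∃ n : ℕ, (⇑D)^[n] a = 0

theorem iter_add (D : Derivation k S S) (n : ℕ) (a b : S) :
    (⇑D)^[n] (a + b) = (⇑D)^[n] a + (⇑D)^[n] b := by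
  induction n with
  | zero => simp
  | succ n ih => simp only [Function.iterate_succ_apply', ih, map_add]

theorem iter_zero (D : Derivation k S S) (n : ℕ) : (⇑D)^[n] (0 : S) = 0 := by
  induction n with
  | zero => simp
  | succ n ih => simp only [Function.iterate_succ_apply', ih, map_zero]

theorem iter_of_le (D : Derivation k S S) {n m : ℕ} (h : n ≤ m) {a : S} (ha : (⇑D)^[n] a = 0) :
    (⇑D)^[m] a = 0 := by
  obtain ⟨j, rfl⟩ := Nat.exists_eq_add_of_le' h
  rw [Function.iterate_add_apply, ha, iter_zero]

theorem iter_leibniz (D : Derivation k S S) (n : ℕ) (a b : S) :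
    (⇑D)^[n] (a * b) = ∑ ij ∈ Finset.HasAntidiagonal.antidiagonal n,
      (n.choose ij.1 : S) * ((⇑D)^[ij.1] a * (⇑D)^[ij.2] b) := by
  induction n with
  | zero => simp
  | succ n ih =>
    rw [Finset.sum_antidiagonal_choose_succ_mul (fun i j => (⇑D)^[i] a * (⇑D)^[j] b) n,
      Function.iterate_succ_apply', ih, map_sum, ← Finset.sum_add_distrib]
    refine Finset.sum_congr rfl ?_
    rintro ⟨i, j⟩ hij
    have hij' : i + j = n := by simpa using hij
    have hc : n.choose j = n.choose i := by
      rw [← hij', add_comm]; exact (Nat.choose_symm_add).symm ▸ (by rw [add_comm])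
    simp only [Derivation.leibniz, Derivation.map_natCast, smul_eq_mul, mul_zero, add_zero,
      Function.iterate_succ_apply', hc]
    ring

theorem iter_mul_eq_zero (D : Derivation k S S) {n m : ℕ} {a b : S} (ha : (⇑D)^[n] a = 0)
    (hb : (⇑D)^[m] b = 0) : (⇑D)^[n + m] (a * b) = 0 := by
  rw [iter_leibniz]
  refine Finset.sum_eq_zero ?_
  rintro ⟨i, j⟩ hij
  have hij' : i + j = n + m := by simpa using hij
  by_cases h : n ≤ i
  · simp [iter_of_le D h ha]
  · have : m ≤ j := by omega
    simp [iter_of_le D this hb]

theorem nil_add (D : Derivation k S S) {a b : S} (ha : ∃ n, (⇑D)^[n] a = 0)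
    (hb : ∃ n, (⇑D)^[n] b = 0) : ∃ n, (⇑D)^[n] (a + b) = 0 := by
  obtain ⟨n, hn⟩ := ha
  obtain ⟨m, hm⟩ := hb
  exact ⟨n + m, by rw [iter_add, iter_of_le D (Nat.le_add_right n m) hn,
    iter_of_le D (Nat.le_add_left m n) hm, add_zero]⟩

theorem nil_mul (D : Derivation k S S) {a b : S} (ha : ∃ n, (⇑D)^[n] a = 0)
    (hb : ∃ n, (⇑D)^[n] b = 0) : ∃ n, (⇑D)^[n] (a * b) = 0 := by
  obtain ⟨n, hn⟩ := ha
  obtain ⟨m, hm⟩ := hb
  exact ⟨n + m, iter_mul_eq_zero D hn hm⟩

end basic

/-- A derivation of a polynomial ring (over a base whose elements are killed) which is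
nilpotent on the variables is locally nilpotent. -/
theorem lnd_mvPoly {k R σ : Type*} [CommRing k] [CommRing R] [Algebra k R]
    (D : Derivation k (MvPolynomial σ R) (MvPolynomial σ R))
    (hC : ∀ r : R, D (MvPolynomial.C r) = 0)
    (hX : ∀ i, ∃ n, (⇑D)^[n] (MvPolynomial.X i) = 0) : IsLND D := by
  intro a
  induction a using MvPolynomial.induction_on with
  | C r => exact ⟨1, by simpa using hC r⟩
  | add p q hp hq => exact nil_add D hp hq
  | mul_X p i hp => exact nil_mul D hp (hX i)

theorem lnd_pderiv {R σ : Type*} [CommRing R] (i : σ) :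
    IsLND (MvPolynomial.pderiv i : Derivation R (MvPolynomial σ R) (MvPolynomial σ R)) := by
  classical
  refine lnd_mvPoly _ (fun r => MvPolynomial.pderiv_C) (fun j => ⟨2, ?_⟩)
  by_cases h : j = i
  · subst h
    simp [Function.iterate_succ_apply']
  · simp [Function.iterate_succ_apply', MvPolynomial.pderiv_X_of_ne h]

section exp
variable {k S K : Type*} [CommRing k] [CommRing S] [Algebra k S] [Field K] [CharZero K]

/-- The exponential of a locally nilpotent derivation, as a function. -/
noncomputable def expFun (D : Derivation k S S) (hD : IsLND D) (j : S →+* K) (a : S) : K[X] :=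
  Polynomial.ofFinsupp (AddMonoidAlgebra.ofCoeff (Finsupp.ofSupportFinite
    (fun n : ℕ => ((n.factorial : K)⁻¹) * j ((⇑D)^[n] a)) (by
      obtain ⟨N, hN⟩ := hD a
      refine (Set.finite_lt_nat N).subset ?_
      intro n hn
      by_contra h
      apply hn
      have : N ≤ n := by simpa using h
      simp [iter_of_le D this hN])))

theorem coeff_expFun (D : Derivation k S S) (hD : IsLND D) (j : S →+* K) (a : S) (n : ℕ) :
    (expFun D hD j a).coeff n = ((n.factorial : K)⁻¹) * j ((⇑D)^[n] a) := by
  simp [expFun, Finsupp.ofSupportFinite_coe]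

/-- The exponential of a locally nilpotent derivation. -/
noncomputable def expHom (D : Derivation k S S) (hD : IsLND D) (j : S →+* K) : S →+* K[X] where
  toFun := expFun D hD j
  map_one' := by
    ext n
    rw [coeff_expFun, coeff_one]
    rcases n with _ | n
    · simp
    · simp [Function.iterate_succ_apply, iter_zero]
  map_zero' := by
    ext n
    simp [coeff_expFun, iter_zero]
  map_add' a b := by
    ext n
    simp [coeff_expFun, iter_add, mul_add]
  map_mul' a b := by
    ext n
    rw [coeff_mul, coeff_expFun, iter_leibniz, map_sum, Finset.mul_sum]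
    refine Finset.sum_congr rfl ?_
    rintro ⟨p, q⟩ hpq
    have h : p + q = n := by simpa using hpq
    subst h
    simp only [coeff_expFun, map_mul, map_natCast]
    have h1 : ((p + q).choose p : K) * p.factorial * q.factorial = (p + q).factorial := by
      have := Nat.add_choose_mul_factorial_mul_factorial p q
      rw [Nat.choose_symm_add] 
      exact_mod_cast this
    have hp : (p.factorial : K) ≠ 0 := by exact_mod_cast p.factorial_ne_zero
    have hq : (q.factorial : K) ≠ 0 := by exact_mod_cast q.factorial_ne_zero
    have hpq : ((p + q).factorial : K) ≠ 0 := by exact_mod_cast (p + q).factorial_ne_zero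
    field_simp
    rw [← h1]
    ring

theorem coeff_expHom (D : Derivation k S S) (hD : IsLND D) (j : S →+* K) (a : S) (n : ℕ) :
    (expHom D hD j a).coeff n = ((n.factorial : K)⁻¹) * j ((⇑D)^[n] a) :=
  coeff_expFun D hD j a n

theorem expHom_of_ker (D : Derivation k S S) (hD : IsLND D) (j : S →+* K) {a : S}
    (ha : D a = 0) : expHom D hD j a = C (j a) := by
  ext n
  rw [coeff_expHom, coeff_C]
  rcases n with _ | n
  · simp
  · simp [Function.iterate_succ_apply, ha, iter_zero]

theorem coeff_zero_expHom (D : Derivation k S S) (hD : IsLND D) (j : S →+* K) (a : S) :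
    (expHom D hD j a).coeff 0 = j a := by
  simp [coeff_expHom]

theorem ker_of_natDegree_expHom (D : Derivation k S S) (hD : IsLND D) (j : S →+* K)
    (hj : Function.Injective j) {a : S} (ha : (expHom D hD j a).natDegree = 0) : D a = 0 := by
  have h1 : (expHom D hD j a).coeff 1 = 0 := coeff_eq_zero_of_natDegree_lt (by omega)
  rw [coeff_expHom] at h1
  apply hj
  simpa using h1

end exp

/-- The kernel of a locally nilpotent derivation of a domain of characteristic zero is
factorially closed. -/
theorem ker_of_mul {k S : Type*} [CommRing k] [CommRing S] [Algebra k S] [IsDomain S] [CharZero S]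
    (D : Derivation k S S) (hD : IsLND D) {a b : S} (hab : a * b ≠ 0) (h : D (a * b) = 0) :
    D a = 0 := by
  let j : S →+* FractionRing S := algebraMap S (FractionRing S)
  have hj : Function.Injective j := IsFractionRing.injective S (FractionRing S)
  have : CharZero (FractionRing S) := charZero_of_injective_ringHom hj
  have h1 := expHom_of_ker D hD j h
  rw [map_mul] at h1
  have hne : (C (j (a * b)) : (FractionRing S)[X]) ≠ 0 := by
    rw [Ne, C_eq_zero]
    intro h0
    exact hab (hj (by rw [h0, map_zero]))
  have ha : expHom D hD j a ≠ 0 := by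
    intro h0; rw [h0, zero_mul] at h1; exact hne h1.symm
  have hb : expHom D hD j b ≠ 0 := by
    intro h0; rw [h0, mul_zero] at h1; exact hne h1.symm
  have h2 := congrArg natDegree h1
  rw [natDegree_mul ha hb, natDegree_C] at h2
  exact ker_of_natDegree_expHom D hD j hj (by omega)

/-- Chain rule for a derivation composed with an algebra map out of a polynomial ring. -/
theorem chain_rule {k σ S : Type*} [CommRing k] [Fintype σ] [CommRing S] [Algebra k S]
    (d : Derivation k S S) (ψ : MvPolynomial σ k →ₐ[k] S) (q : MvPolynomial σ k) :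
    d (ψ q) = ∑ i, ψ (MvPolynomial.pderiv i q) * d (ψ (MvPolynomial.X i)) := by
  classical
  induction q using MvPolynomial.induction_on with
  | C r => simp [MvPolynomial.algHom_C]
  | add p q hp hq => simp only [map_add, hp, hq, add_mul, Finset.sum_add_distrib]
  | mul_X p i hp =>
    simp only [map_mul, Derivation.leibniz, smul_eq_mul, hp, map_add, MvPolynomial.pderiv_X,
      add_mul, Finset.sum_add_distrib, Finset.mul_sum]
    congr 1
    · rw [Finset.sum_eq_single i]
      · simp
      · intro b _ hb
        simp [Pi.single_eq_of_ne hb.symm]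
      · simp
    · refine Finset.sum_congr rfl fun b _ => by ring

end Crest.Agent.R268
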