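import Crest.Agent.R268.FDefs
import Crest.Agent.R268.Dan

/-! The polynomial `p` is not a coordinate. -/

set_option autoImplicit false
set_option linter.unusedSimpArgs false
set_option linter.unusedSectionVars false

namespace Crest.Agent.R268.F

open MvPolynomial

abbrev P3 : Type := MvPolynomial (Fin 3) ℂ

noncomputable def rel0 : P3 := X 0 * X 1 + -(X 2 * (X 2 + 1))

def R0 : Type := P3 ⧸ Ideal.span {rel0}

noncomputable instance instCommRingR0 : CommRing R0 :=
  inferInstanceAs (CommRing (P3 ⧸ Ideal.span {rel0}))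
noncomputable instance instAlgebraR0 : Algebra ℂ R0 :=
  inferInstanceAs (Algebra ℂ (P3 ⧸ Ideal.span {rel0}))

noncomputable def mk0 : P3 →ₐ[ℂ] R0 := Ideal.Quotient.mkₐ ℂ (Ideal.span {rel0})

theorem mk0_surj : Function.Surjective mk0 := Ideal.Quotient.mk_surjective

theorem rel0_irred : Irreducible rel0 := by
  classical
  apply irreducible_mul_X_add
  · exact X_ne_zero _
  · rw [vars_X]; simp
  · rw [vars_neg]
    intro h
    rcases Finset.mem_union.1 (vars_mul _ _ h) with h | h
    · rw [vars_X] at h; simp at h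
    · rcases Finset.mem_union.1 (vars_add_subset _ _ h) with h | h
      · rw [vars_X] at h; simp at h
      · rw [vars_one] at h; simp at h
  · rw [X_prime.irreducible.isRelPrime_iff_not_dvd]
    rintro ⟨q, hq⟩
    have := congrArg (eval (![0, 0, 1] : Fin 3 → ℂ)) hq
    simp at this

instance instDomR0 : IsDomain R0 :=
  (Ideal.Quotient.isDomain_iff_prime _).2
    ((Ideal.span_singleton_prime rel0_irred.ne_zero).2 rel0_irred.prime)

noncomputable def x0 : R0 := mk0 (X 0)
noncomputable def y0 : R0 := mk0 (X 1)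
noncomputable def z0 : R0 := mk0 (X 2)

theorem rel_R0 : x0 * y0 = z0 * (z0 + 1) := by
  have : mk0 rel0 = 0 :=
    Ideal.Quotient.eq_zero_iff_mem.2 (Ideal.mem_span_singleton_self _)
  have h2 : mk0 rel0 = x0 * y0 + -(z0 * (z0 + 1)) := by simp [rel0, x0, y0, z0]
  rw [h2] at this
  linear_combination this

/-- maps out of `R0` -/
noncomputable def liftR0 {S : Type*} [CommRing S] [Algebra ℂ S] (a b c : S)
    (h : a * b = c * (c + 1)) : R0 →ₐ[ℂ] S :=
  Ideal.Quotient.liftₐ _ (aeval ![a, b, c]) (fun q hq => by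
    obtain ⟨r, rfl⟩ := Ideal.mem_span_singleton'.1 hq
    have : aeval ![a, b, c] rel0 = 0 := by simp [rel0, h]
    rw [map_mul, this, mul_zero])

theorem liftR0_mk {S : Type*} [CommRing S] [Algebra ℂ S] (a b c : S)
    (h : a * b = c * (c + 1)) (q : P3) : liftR0 a b c h (mk0 q) = aeval ![a, b, c] q := rfl

theorem liftR0_x {S : Type*} [CommRing S] [Algebra ℂ S] (a b c : S)
    (h : a * b = c * (c + 1)) : liftR0 a b c h x0 = a := by
  simp [liftR0_mk, x0]
theorem liftR0_y {S : Type*} [CommRing S] [Algebra ℂ S] (a b c : S)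
    (h : a * b = c * (c + 1)) : liftR0 a b c h y0 = b := by
  simp [liftR0_mk, y0]
theorem liftR0_z {S : Type*} [CommRing S] [Algebra ℂ S] (a b c : S)
    (h : a * b = c * (c + 1)) : liftR0 a b c h z0 = c := by
  simp [liftR0_mk, z0]

theorem gen_R0 : Algebra.adjoin ℂ {x0, y0, z0} = ⊤ := by
  rw [eq_top_iff]
  intro r _
  obtain ⟨q, rfl⟩ := mk0_surj r
  induction q using MvPolynomial.induction_on with
  | C c => rw [algHom_C]; exact Subalgebra.algebraMap_mem _ c
  | add p q hp hq => rw [map_add]; exact add_mem (hp trivial) (hq trivial)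
  | mul_X p i hp =>
    rw [map_mul]
    refine mul_mem (hp trivial) (Algebra.subset_adjoin ?_)
    fin_cases i
    · left; rfl
    · right; left; rfl
    · right; right; rfl

theorem x0_ne : x0 ≠ 0 := by
  intro h
  have := congrArg (liftR0 (1 : ℂ) 0 0 (by ring)) h
  rw [liftR0_x, map_zero] at this
  exact one_ne_zero this

theorem z0_ne : z0 ≠ 0 := by
  intro h
  have := congrArg (liftR0 (1 : ℂ) 2 1 (by ring)) h
  rw [liftR0_z, map_zero] at this
  exact one_ne_zero this

theorem x0_ne_mul (c : ℂ) : x0 ≠ algebraMap ℂ R0 c * z0 := by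
  intro h
  have := congrArg (liftR0 (1 : ℂ) 0 0 (by ring)) h
  rw [liftR0_x, map_mul, liftR0_z, mul_zero] at this
  exact one_ne_zero this

abbrev P5 : Type := MvPolynomial (Fin 5) ℂ

noncomputable def relB : P5 := X 1 * X 2 - X 3 * (X 3 + 1) - X 0 * X 4

noncomputable def iota : P5 →ₐ[ℂ] A4 := aeval ![pA, xA, dA.y, dA.z, uA]

noncomputable def piR : P5 →ₐ[ℂ] Polynomial R0 :=
  aeval ![0, Polynomial.C x0, Polynomial.C y0, Polynomial.C z0, Polynomial.X]

theorem iota0 : iota (X 0) = pA := by simp [iota]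
theorem iota1 : iota (X 1) = xA := by simp [iota]
theorem iota2 : iota (X 2) = dA.y := by simp [iota]
theorem iota3 : iota (X 3) = dA.z := by simp [iota]
theorem iota4 : iota (X 4) = uA := by simp [iota]
theorem piR0 : piR (X 0) = 0 := by simp [piR]
theorem piR1 : piR (X 1) = Polynomial.C x0 := by simp [piR]
theorem piR2 : piR (X 2) = Polynomial.C y0 := by simp [piR]
theorem piR3 : piR (X 3) = Polynomial.C z0 := by simp [piR]
theorem piR4 : piR (X 4) = Polynomial.X := by simp [piR]

theorem relC : (Polynomial.C x0 : Polynomial R0) * Polynomial.C y0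
    = Polynomial.C z0 * (Polynomial.C z0 + 1) := by
  simpa using congrArg (Polynomial.C : R0 → Polynomial R0) rel_R0

theorem iota_relB : iota relB = 0 := by
  have h : xA * dA.y - dA.z * (dA.z + 1) = pA * uA := dA.rel
  simp only [relB, map_sub, map_mul, map_add, map_one, iota0, iota1, iota2, iota3, iota4]
  linear_combination h

theorem piR_relB : piR relB = 0 := by
  simp only [relB, map_sub, map_mul, map_add, map_one, piR0, piR1, piR2, piR3, piR4]
  linear_combination relC

theorem relB_dvd_of_iota {b : P5} (hb : iota b = 0) : relB ∣ b := by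
  let B := P5 ⧸ Ideal.span {relB}
  let mk : P5 →ₐ[ℂ] B := Ideal.Quotient.mkₐ ℂ _
  let L := Localization.Away (mk (X 0))
  let al : B →ₐ[ℂ] L := IsScalarTower.toAlgHom ℂ B L
  let pi : L := IsLocalization.Away.invSelf (mk (X 0))
  have hp : al (mk (X 0)) * pi = 1 := IsLocalization.Away.mul_invSelf _
  let d : Data L := ofInv (al (mk (X 0))) pi (al (mk (X 1))) (al (mk (X 2))) (al (mk (X 3))) hp
  have hrel : al (mk relB) = 0 := by
    have : mk relB = 0 := Ideal.Quotient.eq_zero_iff_mem.2 (Ideal.mem_span_singleton_self _)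
    rw [this, map_zero]
  have h : d.lift.comp iota = al.comp mk := by
    apply MvPolynomial.algHom_ext
    intro i
    fin_cases i
    · change d.lift (iota (X 0)) = al (mk (X 0))
      rw [iota0, Data.lift_p]; rfl
    · change d.lift (iota (X 1)) = al (mk (X 1))
      rw [iota1, Data.lift_x]; rfl
    · change d.lift (iota (X 2)) = al (mk (X 2))
      rw [iota2, Data.lift_y, ofInv_y]
    · change d.lift (iota (X 3)) = al (mk (X 3))
      rw [iota3, Data.lift_z, ofInv_z]
    · change d.lift (iota (X 4)) = al (mk (X 4))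
      rw [iota4, Data.lift_u]
      change uI _ _ _ _ = _
      simp only [relB, map_sub, map_mul, map_add, map_one] at hrel
      rw [uI]
      linear_combination pi * hrel + al (mk (X 4)) * hp
  have h1 : algebraMap B L (mk b) = algebraMap B L 0 := by
    have := congrArg (fun φ : P5 →ₐ[ℂ] L => φ b) h
    simp only [AlgHom.comp_apply, hb, map_zero] at this
    rw [map_zero]; exact this.symm
  obtain ⟨n, hn⟩ := IsLocalization.Away.exists_of_eq (mk (X 0)) h1
  rw [mul_zero, ← map_pow, ← map_mul] at hn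
  have h2 : relB ∣ X 0 ^ n * b :=
    Ideal.mem_span_singleton.1 (Ideal.Quotient.eq_zero_iff_mem.1 hn)
  have h3 : IsRelPrime (X 0 : P5) relB := by
    rw [X_prime.irreducible.isRelPrime_iff_not_dvd]
    rintro ⟨q, hq⟩
    have := congrArg (eval (![0, 1, 1, 0, 0] : Fin 5 → ℂ)) hq
    simp [relB] at this
  exact (h3.pow_left (m := n)).symm.dvd_of_dvd_mul_left h2

theorem piR_of_iota {b : P5} (hb : iota b = 0) : piR b = 0 := by
  obtain ⟨c, rfl⟩ := relB_dvd_of_iota hb
  rw [map_mul, piR_relB, zero_mul]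

theorem ker_piR {b : P5} (hb : piR b = 0) : ∃ c e : P5, c * X 0 + e * relB = b := by
  let J : Ideal P5 := Ideal.span {X 0, relB}
  let mk : P5 →ₐ[ℂ] P5 ⧸ J := Ideal.Quotient.mkₐ ℂ _
  have h0 : mk (X 0) = 0 := Ideal.Quotient.eq_zero_iff_mem.2 (Ideal.subset_span (by simp))
  have h1 : mk relB = 0 := Ideal.Quotient.eq_zero_iff_mem.2 (Ideal.subset_span (by simp))
  simp only [relB, map_sub, map_mul, map_add, map_one, h0] at h1
  let σ0 : R0 →ₐ[ℂ] P5 ⧸ J := liftR0 (mk (X 1)) (mk (X 2)) (mk (X 3)) (by linear_combination h1)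
  let σ : Polynomial R0 →ₐ[ℂ] P5 ⧸ J :=
    Polynomial.eval₂AlgHom σ0 (mk (X 4)) (fun _ => Commute.all _ _)
  have hC : ∀ r, σ (Polynomial.C r) = σ0 r := fun r => by simp [σ]
  have h : σ.comp piR = mk := by
    apply MvPolynomial.algHom_ext
    intro i
    fin_cases i
    · change σ (piR (X 0)) = mk (X 0)
      rw [piR0, map_zero, h0]
    · change σ (piR (X 1)) = mk (X 1)
      rw [piR1, hC, liftR0_x]
    · change σ (piR (X 2)) = mk (X 2)
      rw [piR2, hC, liftR0_y]
    · change σ (piR (X 3)) = mk (X 3)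
      rw [piR3, hC, liftR0_z]
    · change σ (piR (X 4)) = mk (X 4)
      rw [piR4]; simp [σ]
  have h2 : mk b = 0 := by rw [← h, AlgHom.comp_apply, hb, map_zero]
  exact Ideal.mem_span_pair.1 (Ideal.Quotient.eq_zero_iff_mem.1 h2)

theorem piR_surj : Function.Surjective piR := by
  intro f
  change f ∈ piR.range
  induction f using Polynomial.induction_on' with
  | add p q hp hq => exact add_mem hp hq
  | monomial n a =>
    rw [← Polynomial.C_mul_X_pow_eq_monomial]
    refine mul_mem ?_ (pow_mem (show Polynomial.X ∈ piR.range from ⟨X 4, piR4⟩) n)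
    have ha : a ∈ Algebra.adjoin ℂ {x0, y0, z0} := by rw [gen_R0]; trivial
    induction ha using Algebra.adjoin_induction with
    | mem a ha =>
      rcases ha with rfl | rfl | rfl
      exacts [⟨X 1, piR1⟩, ⟨X 2, piR2⟩, ⟨X 3, piR3⟩]
    | algebraMap c => exact Subalgebra.algebraMap_mem _ c
    | add a b _ _ ha hb => rw [map_add]; exact add_mem ha hb
    | mul a b _ _ ha hb => rw [map_mul]; exact mul_mem ha hb

noncomputable def SP : P5 := X 2 - X 1 ^ 2 + 2 * X 3 * X 4

theorem iota_SP : iota SP = sA := by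
  have h : sA = dA.y - xA ^ 2 + 2 * dA.z * uA := dA.s_eq
  simp only [SP, map_sub, map_mul, map_add, map_pow, map_ofNat, iota1, iota2, iota3, iota4]
  exact h.symm

theorem iota_G2 : iota (X 3 - SP * X 1) = pA * X 2 := by
  have h : dA.z = pA * X 2 + sA * xA := rfl
  rw [map_sub, map_mul, iota_SP, iota3, iota1, h]; ring

theorem iota_G1 : iota (X 1 - SP ^ 2 - 2 * SP * X 4) = pA * FA := by
  have h : xA = sA ^ 2 + 2 * sA * uA + pA * FA := dA.h1
  simp only [map_sub, map_mul, map_pow, map_ofNat, iota_SP, iota1, iota4]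
  linear_combination h

theorem exists_pow (a : A4) : ∃ n : ℕ, ∃ b : P5, iota b = pA ^ n * a := by
  let B : Subalgebra ℂ A4 :=
    { carrier := {a | ∃ n : ℕ, ∃ b : P5, iota b = pA ^ n * a}
      mul_mem' := by
        rintro a a' ⟨n, b, hb⟩ ⟨n', b', hb'⟩
        exact ⟨n + n', b * b', by rw [map_mul, hb, hb']; ring⟩
      add_mem' := by
        rintro a a' ⟨n, b, hb⟩ ⟨n', b', hb'⟩
        exact ⟨n + n', X 0 ^ n' * b + X 0 ^ n * b', by
          simp only [map_add, map_mul, map_pow, iota0, hb, hb']; ring⟩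
      algebraMap_mem' := fun c => ⟨0, algebraMap ℂ P5 c, by simp⟩ }
  exact mem_of_gens B ⟨0, X 0, by simp [iota0]⟩ ⟨0, SP, by simp [iota_SP]⟩
    ⟨0, X 4, by simp [iota4]⟩ ⟨1, _, by rw [iota_G1, pow_one]⟩ ⟨1, _, by rw [iota_G2, pow_one]⟩ a

theorem piR_mem {b : P5} (hb : pA ∣ iota b) :
    ∃ c e, c * piR (X 1 - SP ^ 2 - 2 * SP * X 4) + e * piR (X 3 - SP * X 1) = piR b := by
  let J : Ideal (Polynomial R0) :=
    Ideal.span {piR (X 1 - SP ^ 2 - 2 * SP * X 4), piR (X 3 - SP * X 1)}
  let mk : Polynomial R0 →ₐ[ℂ] Polynomial R0 ⧸ J := Ideal.Quotient.mkₐ ℂ _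
  have h1 : mk (piR (X 1 - SP ^ 2 - 2 * SP * X 4)) = 0 :=
    Ideal.Quotient.eq_zero_iff_mem.2 (Ideal.subset_span (by simp))
  have h2 : mk (piR (X 3 - SP * X 1)) = 0 :=
    Ideal.Quotient.eq_zero_iff_mem.2 (Ideal.subset_span (by simp))
  have h3 : mk (piR SP) = mk (piR (X 2)) - mk (piR (X 1)) ^ 2
      + 2 * mk (piR (X 3)) * mk (piR (X 4)) := by
    simp only [SP, map_sub, map_mul, map_add, map_pow, map_ofNat]
  simp only [map_sub, map_mul, map_pow, map_ofNat] at h1 h2
  let d : Data (Polynomial R0 ⧸ J) := ofZero (mk (piR SP)) (mk (piR (X 4))) 0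
  have hx : d.x = mk (piR (X 1)) := by
    change mk (piR SP) ^ 2 + 2 * mk (piR SP) * mk (piR (X 4)) = _
    linear_combination -h1
  have hz : d.z = mk (piR (X 3)) := by
    rw [Data.z, hx]
    change 0 * _ + mk (piR SP) * _ = _
    linear_combination -h2
  have h : d.lift.comp iota = mk.comp piR := by
    apply MvPolynomial.algHom_ext
    intro i
    fin_cases i
    · change d.lift (iota (X 0)) = mk (piR (X 0))
      rw [iota0, Data.lift_p, piR0, map_zero]; rfl
    · change d.lift (iota (X 1)) = mk (piR (X 1))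
      rw [iota1, Data.lift_x, hx]
    · change d.lift (iota (X 2)) = mk (piR (X 2))
      rw [iota2, Data.lift_y, Data.y, hx, hz]
      change mk (piR SP) + _ - 2 * _ * mk (piR (X 4)) = _
      linear_combination h3
    · change d.lift (iota (X 3)) = mk (piR (X 3))
      rw [iota3, Data.lift_z, hz]
    · change d.lift (iota (X 4)) = mk (piR (X 4))
      rw [iota4, Data.lift_u]; rfl
  obtain ⟨a, ha⟩ := hb
  have h4 : mk (piR b) = 0 := by
    have := congrArg (fun φ : P5 →ₐ[ℂ] (Polynomial R0 ⧸ J) => φ b) h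
    simp only [AlgHom.comp_apply, ha, map_mul, Data.lift_p] at this
    rw [← this]
    exact zero_mul _
  exact Ideal.mem_span_pair.1 (Ideal.Quotient.eq_zero_iff_mem.1 h4)

theorem lnd_dvd (D : Derivation ℂ A4 A4) (hD : IsLND D) (hp : D pA = 0) : pA ∣ D sA := by
  classical
  have hex : ∃ N : ℕ, ∀ i : Fin 5, ∃ b : P5, iota b = pA ^ N * D (iota (X i)) := by
    choose n b hb using fun i : Fin 5 => exists_pow (D (iota (X i)))
    refine ⟨Finset.univ.sup n, fun i => ⟨X 0 ^ (Finset.univ.sup n - n i) * b i, ?_⟩⟩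
    have hN : n i ≤ Finset.univ.sup n := Finset.le_sup (f := n) (Finset.mem_univ i)
    rw [map_mul, map_pow, iota0, hb, ← mul_assoc, ← pow_add, Nat.sub_add_cancel hN]
  have hspec := Nat.find_spec hex
  have hmin := @Nat.find_min _ _ hex
  generalize Nat.find hex = N at hspec hmin
  choose E hE using hspec
  let D' : Derivation ℂ P5 P5 := mkDerivation ℂ E
  have key : ∀ b, iota (D' b) = pA ^ N * D (iota b) := by
    intro b
    induction b using MvPolynomial.induction_on with
    | C r => simp [D', algHom_C]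
    | add p q hp hq => simp only [map_add, hp, hq, mul_add]
    | mul_X p k hp =>
      simp only [Derivation.leibniz, smul_eq_mul, map_add, map_mul, hp]
      rw [show D' (X k) = E k from mkDerivation_X _ _ _, hE]
      ring
  have hker : ∀ b, piR b = 0 → piR (D' b) = 0 := by
    intro b hb
    obtain ⟨c, e, rfl⟩ := ker_piR hb
    have e1 : piR (D' (X 0)) = 0 := piR_of_iota (by rw [key, iota0, hp, mul_zero])
    have e2 : piR (D' relB) = 0 := piR_of_iota (by rw [key, iota_relB, map_zero, mul_zero])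
    simp only [Derivation.leibniz, smul_eq_mul, map_add, map_mul, e1, e2, piR0, piR_relB]
    ring
  let δ : Derivation ℂ (Polynomial R0) (Polynomial R0) :=
    Derivation.liftOfSurjective piR_surj hker
  have hδ : ∀ b, δ (piR b) = piR (D' b) := fun b =>
    Derivation.liftOfSurjective_apply piR_surj hker b
  have hpow : ∀ n : ℕ, D (pA ^ n) = 0 := fun n => by rw [Derivation.leibniz_pow, hp]; simp
  have hlnd : IsLND δ := by
    intro f
    obtain ⟨b, rfl⟩ := piR_surj f
    obtain ⟨n, hn⟩ := hD (iota b)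
    refine ⟨n, ?_⟩
    have e1 : ∀ n : ℕ, (⇑δ)^[n] (piR b) = piR ((⇑D')^[n] b) := by
      intro n
      induction n with
      | zero => rfl
      | succ n ih => rw [Function.iterate_succ_apply', Function.iterate_succ_apply', ih, hδ]
    have e2 : ∀ n : ℕ, iota ((⇑D')^[n] b) = pA ^ (n * N) * (⇑D)^[n] (iota b) := by
      intro n
      induction n with
      | zero => simp
      | succ n ih =>
        rw [Function.iterate_succ_apply', Function.iterate_succ_apply', key, ih,
          Derivation.leibniz, hpow]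
        simp only [smul_eq_mul]
        ring
    rw [e1]
    apply piR_of_iota
    rw [e2, hn, mul_zero]
  have hrel := relC
  have hzero : δ = 0 := by
    refine cyl_lemma rel_R0 gen_R0 x0_ne z0_ne x0_ne_mul δ hlnd
      {i | ∃ b, piR b = i ∧ pA ∣ iota b} (piR (X 3 - SP * X 1)) ?_ ?_ ?_ ?_ ?_
    · simp only [SP, map_sub, map_mul, map_add, map_pow, map_ofNat, map_neg, piR1, piR2, piR3, piR4]
      linear_combination -hrel
    · exact ⟨_, rfl, ⟨_, iota_G2⟩⟩
    · rintro i ⟨b, rfl, a, ha⟩
      refine ⟨D' b, (hδ b).symm, pA ^ N * D a, ?_⟩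
      rw [key, ha, Derivation.leibniz, hp]
      simp only [smul_eq_mul]
      ring
    · rintro i ⟨b, rfl, hb⟩
      obtain ⟨c, e, h⟩ := piR_mem hb
      refine ⟨c * (1 + 2 * piR (X 1) * piR (X 4) + piR (X 3) + piR SP * piR (X 1))
        + e * piR (X 1) ^ 2, ?_⟩
      rw [← h]
      simp only [SP, map_sub, map_mul, map_add, map_pow, map_ofNat, map_neg, piR1, piR2, piR3, piR4]
      linear_combination c * hrel
    · rintro i ⟨b, rfl, hb⟩
      obtain ⟨c, e, h⟩ := piR_mem hb
      refine ⟨c * (piR (X 2) ^ 2 + 2 * piR (X 2) * piR (X 3) * piR (X 4)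
        - piR (X 1) * piR (X 3) ^ 2) + e * piR (X 3) ^ 2, ?_⟩
      rw [← h]
      simp only [SP, map_sub, map_mul, map_add, map_pow, map_ofNat, map_neg, piR1, piR2, piR3, piR4]
      generalize (Polynomial.C x0 : Polynomial R0) = x at *
      generalize (Polynomial.C y0 : Polynomial R0) = y at *
      generalize (Polynomial.C z0 : Polynomial R0) = z at *
      generalize (Polynomial.X : Polynomial R0) = u at *
      linear_combination c * (-x ^ 2 * y - 2 * x ^ 2 * z * u - x * z + y ^ 2 + 4 * y * z * u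
        + 4 * z ^ 2 * u ^ 2) * hrel
  have hE' : ∀ i, ∃ c, iota (E i) = pA * iota c := by
    intro i
    have : piR (E i) = 0 := by
      rw [← show D' (X i) = E i from mkDerivation_X _ _ _, ← hδ, hzero]; rfl
    obtain ⟨c, e, h⟩ := ker_piR this
    exact ⟨c, by rw [← h, map_add, map_mul, map_mul, iota_relB, iota0]; ring⟩
  rcases N with _ | N
  · have h1 : ∀ i, pA ∣ D (iota (X i)) := by
      intro i
      obtain ⟨c, hc⟩ := hE' i
      rw [hE, pow_zero, one_mul] at hc
      exact ⟨_, hc⟩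
    rw [← iota_SP]
    simp only [SP, map_sub, map_mul, map_add, map_pow, map_ofNat, Derivation.leibniz,
      Derivation.leibniz_pow, smul_eq_mul, nsmul_eq_mul]
    have h2 : D 2 = 0 := by simpa using D.map_natCast 2
    rw [h2]
    obtain ⟨c1, e1⟩ := h1 1
    obtain ⟨c2, e2⟩ := h1 2
    obtain ⟨c3, e3⟩ := h1 3
    obtain ⟨c4, e4⟩ := h1 4
    rw [e1, e2, e3, e4]
    exact ⟨c2 - 2 * iota (X 1) * c1 + 2 * iota (X 3) * c4 + 2 * iota (X 4) * c3, by
      push_cast; ring⟩
  · exfalso
    apply hmin (Nat.lt_succ_self N)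
    intro i
    obtain ⟨c, hc⟩ := hE' i
    refine ⟨c, ?_⟩
    have hp0 : pA ≠ 0 := by
      intro h0
      have := (ofInv (1 : ℂ) 1 0 0 0 (one_mul 1)).lift_p
      rw [h0, map_zero] at this
      exact zero_ne_one this
    apply mul_left_cancel₀ hp0
    rw [← hc, hE]; ring

theorem not_coord : ¬ ∃ τ : A4 ≃ₐ[ℂ] A4, τ pA = X 0 := by
  rintro ⟨τ, hτ⟩
  have hτ' : τ.symm (X 0) = pA := by rw [← hτ, AlgEquiv.symm_apply_apply]
  have h1 : ∀ i : Fin 4, i ≠ 0 → (X 0 : A4) ∣ pderiv i (τ sA) := by
    intro i hi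
    let D : Derivation ℂ A4 A4 := Derivation.mk'
      (τ.symm.toLinearMap ∘ₗ (pderiv i : Derivation ℂ A4 A4).toLinearMap ∘ₗ τ.toLinearMap) (by
        intro a b
        simp [Derivation.leibniz])
    have hD : ∀ a, D a = τ.symm (pderiv i (τ a)) := fun a => rfl
    have hlnd : IsLND D := by
      intro a
      obtain ⟨n, hn⟩ := lnd_pderiv i (τ a)
      refine ⟨n, ?_⟩
      have : ∀ n : ℕ, (⇑D)^[n] a = τ.symm ((⇑(pderiv i : Derivation ℂ A4 A4))^[n] (τ a)) := by
        intro n
        induction n with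
        | zero => simp
        | succ n ih =>
          rw [Function.iterate_succ_apply', Function.iterate_succ_apply', ih, hD,
            AlgEquiv.apply_symm_apply]
      rw [this, hn, map_zero]
    obtain ⟨c, hc⟩ := lnd_dvd D hlnd (by rw [hD, hτ, pderiv_X_of_ne hi.symm, map_zero])
    refine ⟨τ c, ?_⟩
    rw [← hτ, ← map_mul, ← hc, hD, AlgEquiv.apply_symm_apply]
  let e1 : A4 →ₐ[ℂ] ℂ := (ofZero (0 : ℂ) 0 0).lift.comp τ.symm.toAlgHom
  let e2 : A4 →ₐ[ℂ] ℂ := (ofZero (1 : ℂ) 0 0).lift.comp τ.symm.toAlgHom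
  have a1 : e1 (X 0) = 0 := by
    change (ofZero (0 : ℂ) 0 0).lift (τ.symm (X 0)) = 0
    rw [hτ', Data.lift_p]; rfl
  have a2 : e2 (X 0) = 0 := by
    change (ofZero (1 : ℂ) 0 0).lift (τ.symm (X 0)) = 0
    rw [hτ', Data.lift_p]; rfl
  have b1 : e1 (τ sA) = 0 := by
    change (ofZero (0 : ℂ) 0 0).lift (τ.symm (τ sA)) = 0
    rw [AlgEquiv.symm_apply_apply, Data.lift_s]; rfl
  have b2 : e2 (τ sA) = 1 := by
    change (ofZero (1 : ℂ) 0 0).lift (τ.symm (τ sA)) = 1
    rw [AlgEquiv.symm_apply_apply, Data.lift_s]; rfl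
  let ψ : A4 →ₐ[ℂ] Polynomial ℂ :=
    aeval (fun i => Polynomial.C (e1 (X i)) + Polynomial.C (e2 (X i) - e1 (X i)) * Polynomial.X)
  have hψ0 : ψ (X 0) = 0 := by simp [ψ, a1, a2]
  have hd : Polynomial.derivative (ψ (τ sA)) = 0 := by
    have := chain_rule Polynomial.derivative' ψ (τ sA)
    rw [Polynomial.derivative'_apply] at this
    rw [this]
    apply Finset.sum_eq_zero
    intro i _
    by_cases hi : i = 0
    · subst hi
      rw [hψ0, map_zero, mul_zero]
    · obtain ⟨c, hc⟩ := h1 i hi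
      rw [hc, map_mul, hψ0, zero_mul, zero_mul]
  have hC := Polynomial.eq_C_of_derivative_eq_zero hd
  have v0 : (Polynomial.aeval (0 : ℂ)).comp ψ = e1 := by
    apply MvPolynomial.algHom_ext; intro i; simp [ψ]
  have v1 : (Polynomial.aeval (1 : ℂ)).comp ψ = e2 := by
    apply MvPolynomial.algHom_ext; intro i; simp [ψ]
  rw [← v0, AlgHom.comp_apply, hC, Polynomial.aeval_C] at b1
  rw [← v1, AlgHom.comp_apply, hC, Polynomial.aeval_C, b1] at b2
  exact zero_ne_one b2

end Crest.Agent.R268.F
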